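import Mathlib

/-!
# Talagrand's integral versus fractional expectation thresholds: an iterated-logarithm bound

For every finite family `F` of subsets of a finite set `X`,
`qFrac F ≤ 16 * (k + 2) * qInt F` as soon as `|X| ≤ tower k`, where
`tower 0 = 1` and `tower (k + 1) = 2 ^ tower k`.  So `q_f ≤ 16 (log* |X| + 2) q`.

The proof is a greedy extraction, iterated.  Starting from a cover all of whose members carry a
spread probability measure of `F` above them, one repeatedly extracts the set `C` maximising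
`Z C / K ^ #C`, where `Z C` is the cost of the members containing `C`, relative to `C`.  A member of
the current cover has either been merged into such a `C` or it stays.  The harmonic sum of the
removed shares bounds the new cost by the logarithm of the old one, and the spread constant grows
only by `K * r` at each level.
-/

namespace Vale.Agent.Results.P034.LogStar

open Finset

variable {X : Type*} [Fintype X] [DecidableEq X]

/-- `G` covers `F`: every member of `F` contains a member of `G`. -/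
def Covers (G F : Finset (Finset X)) : Prop := ∀ H ∈ F, ∃ S ∈ G, S ⊆ H

/-- `F` is `p`-small: some cover has cost at most one half at `p`. -/
def IsSmall (F : Finset (Finset X)) (p : ℝ) : Prop :=
  ∃ G : Finset (Finset X), Covers G F ∧ ∑ S ∈ G, p ^ S.card ≤ 1 / 2

/-- A fractional cover of `F`: weights in `[0,1]` with total weight at least one inside each member
of `F`. -/
def IsFractionalCover (g : Finset X → ℝ) (F : Finset (Finset X)) : Prop :=
  (∀ S, 0 ≤ g S ∧ g S ≤ 1) ∧ ∀ H ∈ F, 1 ≤ ∑ S ∈ H.powerset, g S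

/-- `F` is weakly `p`-small: some fractional cover has cost at most one half at `p`. -/
def IsWeaklySmall (F : Finset (Finset X)) (p : ℝ) : Prop :=
  ∃ g : Finset X → ℝ, IsFractionalCover g F ∧ ∑ S : Finset X, g S * p ^ S.card ≤ 1 / 2

/-- The expectation threshold `q(F)`. -/
noncomputable def qInt (F : Finset (Finset X)) : ℝ :=
  sSup {p : ℝ | p ∈ Set.Icc (0 : ℝ) 1 ∧ IsSmall F p}

/-- The fractional expectation threshold `q_f(F)`. -/
noncomputable def qFrac (F : Finset (Finset X)) : ℝ :=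
  sSup {p : ℝ | p ∈ Set.Icc (0 : ℝ) 1 ∧ IsWeaklySmall F p}

/-- The tower function: `tower 0 = 1`, `tower (k + 1) = 2 ^ tower k`. -/
def tower : ℕ → ℕ
  | 0 => 1
  | k + 1 => 2 ^ tower k

/-- `T` carries a probability measure `ν` on the members of `F` containing `T`, with
`ν {H | D ⊆ H} ≤ ρ ^ #D` for every `D` disjoint from `T`. -/
def Good (F : Finset (Finset X)) (ρ : ℝ) (T : Finset X) : Prop :=
  ∃ ν : Finset X → ℝ, (∀ H, 0 ≤ ν H) ∧ ∑ H, ν H = 1 ∧ (∀ H, ν H ≠ 0 → H ∈ F ∧ T ⊆ H) ∧
    ∀ D, Disjoint D T → ∑ H with D ⊆ H, ν H ≤ ρ ^ D.card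

lemma good_of_mem {F : Finset (Finset X)} {ρ : ℝ} (hρ : 0 ≤ ρ) {T : Finset X} (hT : T ∈ F) :
    Good F ρ T := by
  refine ⟨fun H => if H = T then (1 : ℝ) else 0, ?_, ?_, ?_, ?_⟩
  · intro H
    dsimp only
    split_ifs <;> norm_num
  · simp
  · intro H hH
    have hHT : H = T := by
      by_contra h
      simp [h] at hH
    subst hHT
    exact ⟨hT, Subset.rfl⟩
  · intro D hD
    rcases D.eq_empty_or_nonempty with rfl | hne
    · simp
    · have h0 : ∑ H with D ⊆ H, (if H = T then (1 : ℝ) else 0) = 0 := by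
        apply Finset.sum_eq_zero
        intro H hH
        rw [Finset.mem_filter] at hH
        rw [if_neg]
        rintro rfl
        obtain ⟨x, hx⟩ := hne
        exact (Finset.disjoint_left.mp hD hx) (hH.2 hx)
      rw [h0]
      positivity

lemma good_mono {F : Finset (Finset X)} {ρ ρ' : ℝ} (hρ : 0 ≤ ρ) (h : ρ ≤ ρ') {T : Finset X}
    (hT : Good F ρ T) : Good F ρ' T := by
  obtain ⟨ν, h0, h1, hs, hD⟩ := hT
  exact ⟨ν, h0, h1, hs, fun D hd => (hD D hd).trans (pow_le_pow_left₀ hρ h _)⟩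

lemma powerset_eq_filter (H : Finset X) : H.powerset = univ.filter (fun S => S ⊆ H) := by
  ext S
  simp

lemma not_good_empty {F : Finset (Finset X)} {p ρ : ℝ} (hw : IsWeaklySmall F p) (hρ0 : 0 ≤ ρ)
    (hρ : ρ ≤ p) : ¬ Good F ρ ∅ := by
  rintro ⟨ν, h0, h1, hs, hD⟩
  obtain ⟨g, ⟨hg, hc⟩, hcost⟩ := hw
  have key : (1 : ℝ) ≤ ∑ H, ν H * ∑ S ∈ H.powerset, g S := by
    rw [← h1]
    apply Finset.sum_le_sum
    intro H _
    by_cases hH : ν H = 0
    · simp [hH]
    · have h2 := hc H (hs H hH).1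
      nlinarith [h0 H]
  have swap : ∑ H, ν H * ∑ S ∈ H.powerset, g S = ∑ S, g S * ∑ H with S ⊆ H, ν H := by
    calc ∑ H, ν H * ∑ S ∈ H.powerset, g S
        = ∑ H : Finset X, ∑ S : Finset X, if S ⊆ H then ν H * g S else 0 := by
          apply Finset.sum_congr rfl
          intro H _
          rw [powerset_eq_filter, Finset.mul_sum, Finset.sum_filter]
      _ = ∑ S : Finset X, ∑ H : Finset X, if S ⊆ H then ν H * g S else 0 := Finset.sum_comm
      _ = ∑ S, g S * ∑ H with S ⊆ H, ν H := by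
          apply Finset.sum_congr rfl
          intro S _
          rw [Finset.sum_filter, Finset.mul_sum]
          apply Finset.sum_congr rfl
          intro H _
          split_ifs <;> ring
  have bound : ∑ S, g S * ∑ H with S ⊆ H, ν H ≤ ∑ S : Finset X, g S * p ^ S.card := by
    apply Finset.sum_le_sum
    intro S _
    apply mul_le_mul_of_nonneg_left _ (hg S).1
    exact (hD S (Finset.disjoint_empty_right S)).trans (pow_le_pow_left₀ hρ0 hρ _)
  linarith

/-- The cost of the members containing `S`, relative to `S`. -/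
noncomputable def Z (𝒯 : Finset (Finset X)) (r : ℝ) (S : Finset X) : ℝ :=
  ∑ T ∈ 𝒯 with S ⊆ T, r ^ (T \ S).card

lemma Z_nonneg (𝒯 : Finset (Finset X)) {r : ℝ} (hr : 0 ≤ r) (S : Finset X) : 0 ≤ Z 𝒯 r S :=
  Finset.sum_nonneg fun _ _ => pow_nonneg hr _

lemma Z_empty (𝒯 : Finset (Finset X)) (r : ℝ) : Z 𝒯 r ∅ = ∑ T ∈ 𝒯, r ^ T.card := by
  simp [Z]

/-- The combinatorial bound behind the group measure. -/
lemma group_sum_le (𝒯 : Finset (Finset X)) {r K ρ : ℝ} (hr : 0 ≤ r) (hK : 0 ≤ K) (hρ : 0 ≤ ρ)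
    (C D : Finset X) (hCD : Disjoint D C)
    (hmax : ∀ A : Finset X, Disjoint A C → Z 𝒯 r (C ∪ A) ≤ K ^ A.card * Z 𝒯 r C) :
    ∑ T ∈ 𝒯 with C ⊆ T, r ^ (T \ C).card * ρ ^ (D \ T).card
      ≤ Z 𝒯 r C * (K * r + ρ) ^ D.card := by
  have hfib : ∑ T ∈ 𝒯 with C ⊆ T, r ^ (T \ C).card * ρ ^ (D \ T).card
      = ∑ A ∈ D.powerset, ∑ T ∈ (𝒯.filter (fun T => C ⊆ T)) with D ∩ T = A,
          r ^ (T \ C).card * ρ ^ (D \ T).card := by
    symm
    apply Finset.sum_fiberwise_of_maps_to
    intro T _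
    exact Finset.mem_powerset.mpr Finset.inter_subset_left
  rw [hfib, ← Finset.sum_pow_mul_eq_add_pow, Finset.mul_sum]
  apply Finset.sum_le_sum
  intro A hA
  have hAD : A ⊆ D := Finset.mem_powerset.mp hA
  have hAC : Disjoint A C := Finset.disjoint_of_subset_left hAD hCD
  have hterm : ∀ T ∈ (𝒯.filter (fun T => C ⊆ T)).filter (fun T => D ∩ T = A),
      r ^ (T \ C).card * ρ ^ (D \ T).card
        = ρ ^ (D.card - A.card) * r ^ A.card * r ^ (T \ (C ∪ A)).card := by
    intro T hT
    rw [Finset.mem_filter, Finset.mem_filter] at hT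
    obtain ⟨⟨_, hCT⟩, hDT⟩ := hT
    have hcard1 : (D \ T).card = D.card - A.card := by
      rw [← hDT, Finset.card_sdiff, Finset.inter_comm]
    have hATsub : A ⊆ T := by
      rw [← hDT]
      exact Finset.inter_subset_right
    have hsplit : T \ C = A ∪ (T \ (C ∪ A)) := by
      ext x
      simp only [Finset.mem_sdiff, Finset.mem_union, not_or]
      constructor
      · rintro ⟨hxT, hxC⟩
        by_cases hxA : x ∈ A
        · exact Or.inl hxA
        · exact Or.inr ⟨hxT, hxC, hxA⟩
      · rintro (hxA | ⟨hxT, hxC, _⟩)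
        · exact ⟨hATsub hxA, fun hxC => (Finset.disjoint_left.mp hAC hxA) hxC⟩
        · exact ⟨hxT, hxC⟩
    have hdisj : Disjoint A (T \ (C ∪ A)) := by
      rw [Finset.disjoint_left]
      intro x hxA hx
      rw [Finset.mem_sdiff, Finset.mem_union, not_or] at hx
      exact hx.2.2 hxA
    have hcard2 : (T \ C).card = A.card + (T \ (C ∪ A)).card := by
      rw [hsplit, Finset.card_union_of_disjoint hdisj]
    rw [hcard1, hcard2, pow_add]
    ring
  rw [Finset.sum_congr rfl hterm, ← Finset.mul_sum]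
  have hsub : ((𝒯.filter (fun T => C ⊆ T)).filter (fun T => D ∩ T = A))
      ⊆ 𝒯.filter (fun T => C ∪ A ⊆ T) := by
    intro T hT
    rw [Finset.mem_filter, Finset.mem_filter] at hT
    obtain ⟨⟨hT1, hCT⟩, hDT⟩ := hT
    rw [Finset.mem_filter]
    refine ⟨hT1, Finset.union_subset hCT ?_⟩
    rw [← hDT]
    exact Finset.inter_subset_right
  have hle : ∑ T ∈ (𝒯.filter (fun T => C ⊆ T)).filter (fun T => D ∩ T = A),
      r ^ (T \ (C ∪ A)).card ≤ Z 𝒯 r (C ∪ A) := by
    apply Finset.sum_le_sum_of_subset_of_nonneg hsub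
    intro _ _ _
    positivity
  have hnn : 0 ≤ ρ ^ (D.card - A.card) * r ^ A.card := by positivity
  calc ρ ^ (D.card - A.card) * r ^ A.card * ∑ T ∈ (𝒯.filter (fun T => C ⊆ T)).filter
        (fun T => D ∩ T = A), r ^ (T \ (C ∪ A)).card
      ≤ ρ ^ (D.card - A.card) * r ^ A.card * Z 𝒯 r (C ∪ A) :=
        mul_le_mul_of_nonneg_left hle hnn
    _ ≤ ρ ^ (D.card - A.card) * r ^ A.card * (K ^ A.card * Z 𝒯 r C) :=
        mul_le_mul_of_nonneg_left (hmax A hAC) hnn
    _ = Z 𝒯 r C * ((K * r) ^ A.card * ρ ^ (D.card - A.card)) := by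
        rw [mul_pow]
        ring

/-- The group measure: a set `C` maximal for `Z / K ^ #` is good, with a larger constant. -/
lemma good_of_max {F : Finset (Finset X)} {𝒯 : Finset (Finset X)} {r K ρ : ℝ} (hr : 0 ≤ r)
    (hK : 0 ≤ K) (hρ : 0 ≤ ρ) (hgood : ∀ T ∈ 𝒯, Good F ρ T) (C : Finset X)
    (hpos : 0 < Z 𝒯 r C)
    (hmax : ∀ A : Finset X, Disjoint A C → Z 𝒯 r (C ∪ A) ≤ K ^ A.card * Z 𝒯 r C) :
    Good F (K * r + ρ) C := by
  choose! ν h0 h1 hs hD using hgood
  set c : Finset X → ℝ := fun T => r ^ (T \ C).card / Z 𝒯 r C with hc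
  have hc0 : ∀ T, 0 ≤ c T := fun T => div_nonneg (pow_nonneg hr _) hpos.le
  have hcsum : ∑ T ∈ 𝒯 with C ⊆ T, c T = 1 := by
    simp only [hc]
    rw [← Finset.sum_div]
    exact div_self hpos.ne'
  refine ⟨fun H => ∑ T ∈ 𝒯 with C ⊆ T, c T * ν T H, ?_, ?_, ?_, ?_⟩
  · intro H
    apply Finset.sum_nonneg
    intro T hT
    exact mul_nonneg (hc0 T) (h0 T (Finset.mem_filter.mp hT).1 H)
  · rw [Finset.sum_comm]
    rw [← hcsum]
    apply Finset.sum_congr rfl
    intro T hT
    rw [← Finset.mul_sum, h1 T (Finset.mem_filter.mp hT).1, mul_one]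
  · intro H hH
    obtain ⟨T, hT, hne⟩ := Finset.exists_ne_zero_of_sum_ne_zero hH
    have hT' := Finset.mem_filter.mp hT
    have hν : ν T H ≠ 0 := fun h => hne (by rw [h, mul_zero])
    obtain ⟨hHF, hTH⟩ := hs T hT'.1 H hν
    exact ⟨hHF, hT'.2.trans hTH⟩
  · intro D hDC
    have hstep : ∑ H with D ⊆ H, ∑ T ∈ 𝒯 with C ⊆ T, c T * ν T H
        = ∑ T ∈ 𝒯 with C ⊆ T, c T * ∑ H with D ⊆ H, ν T H := by
      rw [Finset.sum_comm]
      apply Finset.sum_congr rfl
      intro T _
      rw [Finset.mul_sum]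
    rw [hstep]
    have hle : ∀ T ∈ 𝒯.filter (fun T => C ⊆ T), c T * ∑ H with D ⊆ H, ν T H
        ≤ c T * ρ ^ (D \ T).card := by
      intro T hT
      have hT' := Finset.mem_filter.mp hT
      apply mul_le_mul_of_nonneg_left _ (hc0 T)
      have hsub : (univ.filter (fun H : Finset X => D ⊆ H))
          ⊆ univ.filter (fun H : Finset X => D \ T ⊆ H) := by
        intro H hH
        rw [Finset.mem_filter] at hH ⊢
        exact ⟨hH.1, Finset.sdiff_subset.trans hH.2⟩
      calc ∑ H with D ⊆ H, ν T H ≤ ∑ H with D \ T ⊆ H, ν T H :=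
            Finset.sum_le_sum_of_subset_of_nonneg hsub fun H _ _ => h0 T hT'.1 H
        _ ≤ ρ ^ (D \ T).card := hD T hT'.1 (D \ T) Finset.sdiff_disjoint
    calc ∑ T ∈ 𝒯 with C ⊆ T, c T * ∑ H with D ⊆ H, ν T H
        ≤ ∑ T ∈ 𝒯 with C ⊆ T, c T * ρ ^ (D \ T).card := Finset.sum_le_sum hle
      _ = (∑ T ∈ 𝒯 with C ⊆ T, r ^ (T \ C).card * ρ ^ (D \ T).card) / Z 𝒯 r C := by
          rw [Finset.sum_div]
          apply Finset.sum_congr rfl
          intro T _
          simp only [hc]
          ring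
      _ ≤ (K * r + ρ) ^ D.card := by
          rw [div_le_iff₀ hpos]
          have := group_sum_le 𝒯 hr hK hρ C D hDC hmax
          linarith

/-- One extraction: a cover member family of positive cost contains a nonempty set `C` which is
good at the next constant and whose cost is at most the removed share divided by `K`. -/
lemma exists_center {F : Finset (Finset X)} {𝒯 : Finset (Finset X)} {p r K ρ : ℝ} (hr : 0 < r)
    (hK : 1 ≤ K) (hρ : 0 ≤ ρ) (hw : IsWeaklySmall F p) (hp : K * r + ρ ≤ p)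
    (hgood : ∀ T ∈ 𝒯, Good F ρ T) (hW : 0 < ∑ T ∈ 𝒯, r ^ T.card) :
    ∃ C : Finset X, Good F (K * r + ρ) C ∧ C.Nonempty ∧
      (∃ T ∈ 𝒯, C ⊆ T) ∧
      r ^ C.card * K * ∑ T ∈ 𝒯, r ^ T.card ≤ ∑ T ∈ 𝒯 with C ⊆ T, r ^ T.card := by
  have hK0 : 0 < K := by linarith
  obtain ⟨C, -, hC⟩ := Finset.exists_max_image (univ : Finset (Finset X))
    (fun S => Z 𝒯 r S / K ^ S.card) ⟨∅, Finset.mem_univ _⟩
  have hWC : ∑ T ∈ 𝒯, r ^ T.card ≤ Z 𝒯 r C / K ^ C.card := by
    have := hC ∅ (Finset.mem_univ _)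
    simpa [Z_empty] using this
  have hCge : K ^ C.card * ∑ T ∈ 𝒯, r ^ T.card ≤ Z 𝒯 r C := by
    have hKpos : 0 < K ^ C.card := by positivity
    rw [le_div_iff₀ hKpos] at hWC
    linarith
  have hpos : 0 < Z 𝒯 r C := lt_of_lt_of_le (by positivity) hCge
  have hmax : ∀ A : Finset X, Disjoint A C → Z 𝒯 r (C ∪ A) ≤ K ^ A.card * Z 𝒯 r C := by
    intro A hA
    have h1 := hC (C ∪ A) (Finset.mem_univ _)
    have hcard : (C ∪ A).card = C.card + A.card :=
      Finset.card_union_of_disjoint hA.symm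
    rw [hcard, pow_add, div_le_div_iff₀ (by positivity) (by positivity)] at h1
    have hKC : 0 < K ^ C.card := by positivity
    have : Z 𝒯 r (C ∪ A) * K ^ C.card ≤ (K ^ A.card * Z 𝒯 r C) * K ^ C.card := by
      nlinarith
    exact le_of_mul_le_mul_right this hKC
  have hgoodC : Good F (K * r + ρ) C := good_of_max hr.le hK0.le hρ hgood C hpos hmax
  have hne : C.Nonempty := by
    rw [Finset.nonempty_iff_ne_empty]
    rintro rfl
    have hnn : 0 ≤ K * r + ρ := by positivity
    exact not_good_empty hw hnn hp hgoodC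
  refine ⟨C, hgoodC, hne, ?_, ?_⟩
  · by_contra hno
    push Not at hno
    have : Z 𝒯 r C = 0 := by
      apply Finset.sum_eq_zero_iff_of_nonneg (fun _ _ => by positivity) |>.mpr
      intro T hT
      exact absurd (Finset.mem_filter.mp hT).2 (hno T (Finset.mem_filter.mp hT).1)
    linarith
  · have hshare : ∑ T ∈ 𝒯 with C ⊆ T, r ^ T.card = r ^ C.card * Z 𝒯 r C := by
      rw [Z, Finset.mul_sum]
      apply Finset.sum_congr rfl
      intro T hT
      have hCT := (Finset.mem_filter.mp hT).2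
      rw [← pow_add, add_comm, Finset.card_sdiff_add_card_eq_card hCT]
    rw [hshare]
    have hKle : K ≤ K ^ C.card := by
      have hcard : C.card ≠ 0 := (Finset.card_pos.mpr hne).ne'
      exact le_self_pow₀ hK hcard
    have hW0 := hW.le
    have hrpow : 0 ≤ r ^ C.card := by positivity
    have : K * ∑ T ∈ 𝒯, r ^ T.card ≤ Z 𝒯 r C := by
      refine le_trans ?_ hCge
      exact mul_le_mul_of_nonneg_right hKle hW0
    calc r ^ C.card * K * ∑ T ∈ 𝒯, r ^ T.card
        = r ^ C.card * (K * ∑ T ∈ 𝒯, r ^ T.card) := by ring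
      _ ≤ r ^ C.card * Z 𝒯 r C := mul_le_mul_of_nonneg_left this hrpow

/-- One level: from a family of good sets of cost `W` to a coarser family of good sets, at the next
constant, of cost at most `τ + (1 + log (max W τ / τ)) / K`. -/
lemma level {F : Finset (Finset X)} {p r K ρ τ : ℝ} (hr : 0 < r)
    (hK : 1 ≤ K) (hρ : 0 ≤ ρ) (hτ : 0 < τ) (hw : IsWeaklySmall F p) (hp : K * r + ρ ≤ p) :
    ∀ (n : ℕ) (𝒯 : Finset (Finset X)), 𝒯.card = n → (∀ T ∈ 𝒯, Good F ρ T) →
      ∃ 𝒯' : Finset (Finset X), (∀ T ∈ 𝒯', Good F (K * r + ρ) T) ∧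
        (∀ T ∈ 𝒯, ∃ T' ∈ 𝒯', T' ⊆ T) ∧
        ∑ T ∈ 𝒯', r ^ T.card
          ≤ τ + (1 + Real.log (max (∑ T ∈ 𝒯, r ^ T.card) τ / τ)) / K := by
  have hK0 : 0 < K := by linarith
  have hinc : ρ ≤ K * r + ρ := by
    have : 0 ≤ K * r := by positivity
    linarith
  intro n
  induction n using Nat.strong_induction_on with
  | _ n ih =>
    intro 𝒯 hcard hgood
    by_cases hWτ : ∑ T ∈ 𝒯, r ^ T.card ≤ τ
    · refine ⟨𝒯, fun T hT => good_mono hρ hinc (hgood T hT), fun T hT => ⟨T, hT, Subset.rfl⟩, ?_⟩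
      have hmax : max (∑ T ∈ 𝒯, r ^ T.card) τ = τ := max_eq_right hWτ
      rw [hmax, div_self hτ.ne', Real.log_one, add_zero]
      have : 0 ≤ 1 / K := by positivity
      linarith
    · push Not at hWτ
      have hW : 0 < ∑ T ∈ 𝒯, r ^ T.card := hτ.trans hWτ
      obtain ⟨C, hgoodC, hne, ⟨T₀, hT₀, hCT₀⟩, hshare⟩ := exists_center hr hK hρ hw hp hgood hW
      set W := ∑ T ∈ 𝒯, r ^ T.card with hWdef
      set rem := 𝒯.filter (fun T => ¬ C ⊆ T) with hrem
      have hsplit : ∑ T ∈ 𝒯 with C ⊆ T, r ^ T.card + ∑ T ∈ rem, r ^ T.card = W := by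
        rw [hrem, hWdef]
        exact Finset.sum_filter_add_sum_filter_not _ _ _
      set R := ∑ T ∈ rem, r ^ T.card with hRdef
      have hR0 : 0 ≤ R := Finset.sum_nonneg fun _ _ => by positivity
      have hremgood : ∀ T ∈ rem, Good F ρ T := fun T hT =>
        hgood T (Finset.mem_filter.mp hT).1
      have hcost : r ^ C.card * K * W ≤ W - R := by linarith
      have hcostC : r ^ C.card ≤ (W - R) / (K * W) := by
        rw [le_div_iff₀ (by positivity)]
        linarith
      have hmaxW : max W τ = W := max_eq_left hWτ.le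
      have hcover : ∀ 𝒰 : Finset (Finset X), (∀ T ∈ rem, ∃ T' ∈ 𝒰, T' ⊆ T) →
          ∀ T ∈ 𝒯, ∃ T' ∈ insert C 𝒰, T' ⊆ T := by
        intro 𝒰 h𝒰 T hT
        by_cases hCT : C ⊆ T
        · exact ⟨C, Finset.mem_insert_self _ _, hCT⟩
        · obtain ⟨T', hT', hsub⟩ := h𝒰 T (Finset.mem_filter.mpr ⟨hT, hCT⟩)
          exact ⟨T', Finset.mem_insert_of_mem hT', hsub⟩
      have hsumins : ∀ 𝒰 : Finset (Finset X), ∑ T ∈ insert C 𝒰, r ^ T.card
          ≤ r ^ C.card + ∑ T ∈ 𝒰, r ^ T.card := by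
        intro 𝒰
        by_cases hCU : C ∈ 𝒰
        · rw [Finset.insert_eq_of_mem hCU]
          have : 0 ≤ r ^ C.card := by positivity
          linarith
        · rw [Finset.sum_insert hCU]
      have hlogW : 0 ≤ Real.log (W / τ) :=
        Real.log_nonneg (by rw [le_div_iff₀ hτ]; linarith)
      have hfrac : (W - R) / W ≤ 1 := by
        rw [div_le_one hW]
        linarith
      by_cases hRτ : R ≤ τ
      · refine ⟨insert C rem, ?_, hcover rem fun T hT => ⟨T, hT, Subset.rfl⟩, ?_⟩
        · intro T hT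
          rcases Finset.mem_insert.mp hT with rfl | hT
          · exact hgoodC
          · exact good_mono hρ hinc (hremgood T hT)
        · refine (hsumins rem).trans ?_
          rw [hmaxW]
          have h1 : (W - R) / (K * W) = ((W - R) / W) / K := by
            field_simp
          have h2 : ((W - R) / W) / K ≤ 1 / K :=
            div_le_div_of_nonneg_right hfrac hK0.le
          have h3 : 1 / K ≤ (1 + Real.log (W / τ)) / K :=
            div_le_div_of_nonneg_right (by linarith) hK0.le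
          have h4 : r ^ C.card ≤ 1 / K := by
            rw [h1] at hcostC
            linarith
          linarith
      · push Not at hRτ
        have hcardrem : rem.card < n := by
          rw [← hcard]
          apply Finset.card_lt_card
          rw [Finset.ssubset_iff_of_subset (Finset.filter_subset _ _)]
          refine ⟨T₀, hT₀, ?_⟩
          intro h
          exact (Finset.mem_filter.mp h).2 hCT₀
        obtain ⟨𝒰, hU1, hU2, hU3⟩ := ih rem.card hcardrem rem rfl hremgood
        refine ⟨insert C 𝒰, ?_, hcover 𝒰 hU2, ?_⟩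
        · intro T hT
          rcases Finset.mem_insert.mp hT with rfl | hT
          · exact hgoodC
          · exact hU1 T hT
        · refine (hsumins 𝒰).trans ?_
          rw [hmaxW]
          have hRmax : max R τ = R := max_eq_left hRτ.le
          rw [← hRdef, hRmax] at hU3
          have hRpos : 0 < R := hτ.trans hRτ
          have hlog : (W - R) / W ≤ Real.log (W / τ) - Real.log (R / τ) := by
            have hx : 0 < R / W := div_pos hRpos hW
            have h1 := Real.log_le_sub_one_of_pos hx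
            have h2 : Real.log (R / W) = Real.log (R / τ) - Real.log (W / τ) := by
              rw [Real.log_div hRpos.ne' hW.ne', Real.log_div hRpos.ne' hτ.ne',
                Real.log_div hW.ne' hτ.ne']
              ring
            have h3 : (W - R) / W = 1 - R / W := by
              field_simp
            rw [h3]
            linarith
          have h1 : (W - R) / (K * W) = ((W - R) / W) / K := by
            field_simp
          rw [h1] at hcostC
          have h5 : ((W - R) / W) / K ≤ (Real.log (W / τ) - Real.log (R / τ)) / K :=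
            div_le_div_of_nonneg_right hlog hK0.le
          have h6 : (1 + Real.log (R / τ)) / K + (Real.log (W / τ) - Real.log (R / τ)) / K
              = (1 + Real.log (W / τ)) / K := by
            rw [← add_div]
            congr 1
            ring
          linarith

lemma tower_pos (j : ℕ) : 1 ≤ tower j := by
  cases j with
  | zero => simp [tower]
  | succ j => exact Nat.one_le_two_pow

/-- Iterating the levels along the tower. -/
lemma levels {F : Finset (Finset X)} {p r : ℝ} (hr : 0 < r) (hw : IsWeaklySmall F p) :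
    ∀ (j i : ℕ) (𝒯 : Finset (Finset X)), Covers 𝒯 F →
      (∀ T ∈ 𝒯, Good F ((i : ℝ) * (16 * r)) T) →
      ∑ T ∈ 𝒯, r ^ T.card ≤ (tower j : ℝ) →
      ((i : ℝ) + j + 1) * (16 * r) ≤ p → IsSmall F r := by
  have hlog2 := Real.log_two_lt_d9
  have hlog2pos : 0 < Real.log 2 := Real.log_pos (by norm_num)
  have hτ : (0 : ℝ) < 1 / 8 := by norm_num
  intro j
  induction j with
  | zero =>
    intro i 𝒯 hcov hgood hcost hp
    have hρ : (0 : ℝ) ≤ (i : ℝ) * (16 * r) := by positivity
    have hp' : 16 * r + (i : ℝ) * (16 * r) ≤ p := by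
      simp only [Nat.cast_zero] at hp
      nlinarith
    obtain ⟨𝒯', _, h2, h3⟩ := level hr (by norm_num) hρ hτ hw hp' 𝒯.card 𝒯 rfl hgood
    refine ⟨𝒯', ?_, ?_⟩
    · intro H hH
      obtain ⟨T, hT, hTH⟩ := hcov H hH
      obtain ⟨T', hT', hsub⟩ := h2 T hT
      exact ⟨T', hT', hsub.trans hTH⟩
    · refine h3.trans ?_
      have hc1 : ∑ T ∈ 𝒯, r ^ T.card ≤ 1 := by simpa [tower] using hcost
      have hmaxle : max (∑ T ∈ 𝒯, r ^ T.card) (1 / 8) ≤ 1 := max_le hc1 (by norm_num)
      have hmaxpos : 0 < max (∑ T ∈ 𝒯, r ^ T.card) (1 / 8 : ℝ) := lt_max_of_lt_right hτ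
      have hlog : Real.log (max (∑ T ∈ 𝒯, r ^ T.card) (1 / 8) / (1 / 8)) ≤ 3 * Real.log 2 := by
        have h8 : (8 : ℝ) = 2 ^ 3 := by norm_num
        calc Real.log (max (∑ T ∈ 𝒯, r ^ T.card) (1 / 8) / (1 / 8))
            ≤ Real.log 8 := by
              apply Real.log_le_log (by positivity)
              rw [div_le_iff₀ hτ]
              linarith
          _ = 3 * Real.log 2 := by
              rw [h8, Real.log_pow]
              norm_num
      have : (1 + Real.log (max (∑ T ∈ 𝒯, r ^ T.card) (1 / 8) / (1 / 8))) / 16 ≤ 3 / 8 := by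
        rw [div_le_iff₀ (by norm_num)]
        linarith
      linarith
  | succ j ih =>
    intro i 𝒯 hcov hgood hcost hp
    have hρ : (0 : ℝ) ≤ (i : ℝ) * (16 * r) := by positivity
    have hrp : 0 ≤ 16 * r := by positivity
    have hp' : 16 * r + (i : ℝ) * (16 * r) ≤ p := by
      push_cast at hp
      have hj : (0 : ℝ) ≤ (j : ℝ) + 1 := by positivity
      nlinarith
    obtain ⟨𝒯', h1, h2, h3⟩ := level hr (by norm_num) hρ hτ hw hp' 𝒯.card 𝒯 rfl hgood
    have hcov' : Covers 𝒯' F := by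
      intro H hH
      obtain ⟨T, hT, hTH⟩ := hcov H hH
      obtain ⟨T', hT', hsub⟩ := h2 T hT
      exact ⟨T', hT', hsub.trans hTH⟩
    have hgood' : ∀ T ∈ 𝒯', Good F (((i + 1 : ℕ) : ℝ) * (16 * r)) T := by
      intro T hT
      have := h1 T hT
      have he : 16 * r + (i : ℝ) * (16 * r) = ((i + 1 : ℕ) : ℝ) * (16 * r) := by
        push_cast
        ring
      rwa [he] at this
    have htow : (1 : ℝ) ≤ (tower j : ℝ) := by exact_mod_cast tower_pos j
    have hcost' : ∑ T ∈ 𝒯', r ^ T.card ≤ (tower j : ℝ) := by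
      refine h3.trans ?_
      have hc1 : ∑ T ∈ 𝒯, r ^ T.card ≤ (2 : ℝ) ^ tower j := by
        have : ((tower (j + 1) : ℕ) : ℝ) = (2 : ℝ) ^ tower j := by
          simp [tower]
        rw [← this]
        exact hcost
      have h2pow : (1 : ℝ) ≤ (2 : ℝ) ^ tower j := one_le_pow₀ (by norm_num)
      have hmaxle : max (∑ T ∈ 𝒯, r ^ T.card) (1 / 8) ≤ (2 : ℝ) ^ tower j :=
        max_le hc1 (by linarith)
      have hmaxpos : 0 < max (∑ T ∈ 𝒯, r ^ T.card) (1 / 8 : ℝ) := lt_max_of_lt_right hτ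
      have hlog : Real.log (max (∑ T ∈ 𝒯, r ^ T.card) (1 / 8) / (1 / 8))
          ≤ ((tower j : ℝ) + 3) * Real.log 2 := by
        calc Real.log (max (∑ T ∈ 𝒯, r ^ T.card) (1 / 8) / (1 / 8))
            ≤ Real.log ((2 : ℝ) ^ (tower j + 3)) := by
              apply Real.log_le_log (by positivity)
              rw [div_le_iff₀ hτ, pow_add]
              have he : (2 : ℝ) ^ tower j * 2 ^ 3 * (1 / 8) = 2 ^ tower j := by ring
              rw [he]
              exact hmaxle
          _ = ((tower j : ℝ) + 3) * Real.log 2 := by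
              rw [Real.log_pow]
              push_cast
              ring
      have : (1 + Real.log (max (∑ T ∈ 𝒯, r ^ T.card) (1 / 8) / (1 / 8))) / 16
          ≤ (tower j : ℝ) * (3 / 4) := by
        rw [div_le_iff₀ (by norm_num)]
        nlinarith
      linarith
    refine ih (i + 1) 𝒯' hcov' hgood' hcost' ?_
    push_cast at hp ⊢
    linarith

lemma sum_pow_card_le {r : ℝ} (hr0 : 0 ≤ r) (hr1 : r ≤ 1) (F : Finset (Finset X)) :
    ∑ T ∈ F, r ^ T.card ≤ (2 : ℝ) ^ Fintype.card X := by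
  have h1 : ∑ T ∈ F, r ^ T.card ≤ ∑ T : Finset X, r ^ T.card :=
    Finset.sum_le_sum_of_subset_of_nonneg (Finset.subset_univ _) fun _ _ _ => by positivity
  have h2 : ∑ T : Finset X, r ^ T.card = (r + 1) ^ Fintype.card X := by
    have := Finset.sum_pow_mul_eq_add_pow r 1 (univ : Finset X)
    simp only [one_pow, mul_one, Finset.powerset_univ, Finset.card_univ] at this
    exact this
  rw [h2] at h1
  refine h1.trans ?_
  exact pow_le_pow_left₀ (by linarith) (by linarith) _

/-- The main implication: a weakly `p`-small family is `p / (16 (k + 2))`-small as soon as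
`|X| ≤ tower k`. -/
theorem isSmall_of_isWeaklySmall (F : Finset (Finset X)) (k : ℕ)
    (hk : Fintype.card X ≤ tower k) {p : ℝ} (hp0 : 0 < p) (hp1 : p ≤ 1)
    (hw : IsWeaklySmall F p) : IsSmall F (p / (16 * ((k : ℝ) + 2))) := by
  set r := p / (16 * ((k : ℝ) + 2)) with hr
  have hC : (0 : ℝ) < 16 * ((k : ℝ) + 2) := by positivity
  have hrpos : 0 < r := div_pos hp0 hC
  have hr1 : r ≤ 1 := by
    rw [hr, div_le_one hC]
    have : (0 : ℝ) ≤ k := by positivity
    linarith
  have hcov : Covers F F := fun H hH => ⟨H, hH, Subset.rfl⟩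
  have hgood : ∀ T ∈ F, Good F (((0 : ℕ) : ℝ) * (16 * r)) T := by
    intro T hT
    apply good_of_mem _ hT
    simp
  have hcost : ∑ T ∈ F, r ^ T.card ≤ (tower (k + 1) : ℝ) := by
    have h2 : (tower (k + 1) : ℝ) = (2 : ℝ) ^ tower k := by
      simp [tower]
    rw [h2]
    refine (sum_pow_card_le hrpos.le hr1 F).trans ?_
    exact pow_le_pow_right₀ (by norm_num) hk
  refine levels hrpos hw (k + 1) 0 F hcov hgood hcost ?_
  have : (((0 : ℕ) : ℝ) + ((k + 1 : ℕ) : ℝ) + 1) * (16 * r) = p := by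
    rw [hr]
    push_cast
    field_simp
    ring
  exact this.le

/-- **Main theorem.** For every finite family `F` of subsets of a finite set `X` and every `k` with
`|X| ≤ tower k`, one has `q_f(F) ≤ 16 (k + 2) q(F)`; that is, `q_f ≤ 16 (log* |X| + 2) q`. -/
theorem result {X : Type*} [Fintype X] [DecidableEq X] (F : Finset (Finset X)) (k : ℕ)
    (hk : Fintype.card X ≤ tower k) :
    qFrac F ≤ 16 * ((k : ℝ) + 2) * qInt F := by
  have hC : (0 : ℝ) < 16 * ((k : ℝ) + 2) := by positivity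
  have hq0 : 0 ≤ qInt F := Real.sSup_nonneg fun x hx => hx.1.1
  have hbdd : BddAbove {p : ℝ | p ∈ Set.Icc (0 : ℝ) 1 ∧ IsSmall F p} :=
    ⟨1, fun x hx => hx.1.2⟩
  apply Real.sSup_le _ (by positivity)
  rintro x ⟨⟨hx0, hx1⟩, hxw⟩
  rcases hx0.eq_or_lt with rfl | hxpos
  · positivity
  · have hs := isSmall_of_isWeaklySmall F k hk hxpos hx1 hxw
    have hmem : x / (16 * ((k : ℝ) + 2)) ∈ {p : ℝ | p ∈ Set.Icc (0 : ℝ) 1 ∧ IsSmall F p} := by
      refine ⟨⟨by positivity, ?_⟩, hs⟩
      rw [div_le_one hC]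
      have : (0 : ℝ) ≤ k := by positivity
      linarith
    have hle := le_csSup hbdd hmem
    rw [div_le_iff₀ hC] at hle
    have : qInt F * (16 * ((k : ℝ) + 2)) = 16 * ((k : ℝ) + 2) * qInt F := by ring
    unfold qInt at this ⊢
    linarith

end Vale.Agent.Results.P034.LogStar
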