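import Mathlib

/-!
# Integral versus fractional expectation thresholds: an iterated-logarithm bound in the size of
the minimal members

Let `L` be such that every member of `F` contains a member of `F` of size at most `L` (for instance
the largest size of a minimal member), and let `L ≤ tower k`, where `tower 0 = 1` and
`tower (k + 1) = 2 ^ tower k`.  Then `qFrac F ≤ 32 * (k + 1) * qInt F`.  So
`q_f ≤ 32 (log* ℓ + 1) q`, with no dependence on the size of the ground set.

The proof has two stages.  A set is called good at `ρ` when every fractional cover of the link of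
`F` at that set has cost at least one at `ρ`.

First stage.  Take an optimal fractional cover `g` of a subfamily at the rate `y`.  Optimality makes
every set in the support of `g` good at `y`.  Extract the set `D` maximising `Z D / θ ^ #D`, where
`Z D` is the `g`-cost of the sets containing `D`, relative to `D`, and `θ = w / y`.  Then `D` is good
at `y + w`, removing the members above `D` lowers the optimal value at `y` by at least `Λ * w ^ #D`,
and `Λ` is bounded below through any fractional cover at the rate `y + w`.  Integrating over the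
optimal value gives a cover by good sets of cost at most `A * (1 + L * log (1 + w / y))` at `w`,
where `A` is the optimal value at `y + w`.

Second stage.  A greedy extraction replaces a cover by good sets of cost `W` by one of cost about
`log W`, and the goodness rate grows by a fixed amount; this is iterated along the tower.
-/

namespace Vale.Agent.Results.P034.LogStarEll

open Finset

variable {X : Type*} [Fintype X] [DecidableEq X]

/-- `G` covers `F`: every member of `F` contains a member of `G`. -/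
def Covers (G F : Finset (Finset X)) : Prop := ∀ H ∈ F, ∃ S ∈ G, S ⊆ H

/-- `F` is `p`-small: some cover has cost at most one half at `p`. -/
def IsSmall (F : Finset (Finset X)) (p : ℝ) : Prop :=
  ∃ G : Finset (Finset X), Covers G F ∧ ∑ S ∈ G, p ^ S.card ≤ 1 / 2

/-- A fractional cover of `F`: weights in `[0,1]` with total weight at least one inside each member
of `F`. -/
def IsFractionalCover (g : Finset X → ℝ) (F : Finset (Finset X)) : Prop :=
  (∀ S, 0 ≤ g S ∧ g S ≤ 1) ∧ ∀ H ∈ F, 1 ≤ ∑ S ∈ H.powerset, g S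

/-- `F` is weakly `p`-small: some fractional cover has cost at most one half at `p`. -/
def IsWeaklySmall (F : Finset (Finset X)) (p : ℝ) : Prop :=
  ∃ g : Finset X → ℝ, IsFractionalCover g F ∧ ∑ S : Finset X, g S * p ^ S.card ≤ 1 / 2

/-- The expectation threshold `q(F)`. -/
noncomputable def qInt (F : Finset (Finset X)) : ℝ :=
  sSup {p : ℝ | p ∈ Set.Icc (0 : ℝ) 1 ∧ IsSmall F p}

/-- The fractional expectation threshold `q_f(F)`. -/
noncomputable def qFrac (F : Finset (Finset X)) : ℝ :=
  sSup {p : ℝ | p ∈ Set.Icc (0 : ℝ) 1 ∧ IsWeaklySmall F p}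

/-- The tower function: `tower 0 = 1`, `tower (k + 1) = 2 ^ tower k`. -/
def tower : ℕ → ℕ
  | 0 => 1
  | k + 1 => 2 ^ tower k

/-- `T` is good at `ρ` for `F`: every fractional cover of the members of `F` containing `T` has cost
at least one at `ρ`, the elements of `T` being free of charge. -/
def Good (F : Finset (Finset X)) (ρ : ℝ) (T : Finset X) : Prop :=
  ∀ g : Finset X → ℝ, (∀ S, 0 ≤ g S) → (∀ H ∈ F, T ⊆ H → 1 ≤ ∑ S ∈ H.powerset, g S) →
    1 ≤ ∑ S, g S * ρ ^ (S \ T).card

lemma good_mono {F : Finset (Finset X)} {ρ ρ' : ℝ} (hρ : 0 ≤ ρ) (h : ρ ≤ ρ') {T : Finset X}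
    (hT : Good F ρ T) : Good F ρ' T := by
  intro g hg hc
  refine (hT g hg hc).trans ?_
  apply Finset.sum_le_sum
  intro S _
  exact mul_le_mul_of_nonneg_left (pow_le_pow_left₀ hρ h _) (hg S)

lemma good_family_mono {F F' : Finset (Finset X)} (hF : F ⊆ F') {ρ : ℝ} {T : Finset X}
    (hT : Good F ρ T) : Good F' ρ T :=
  fun g hg hc => hT g hg fun H hH hTH => hc H (hF hH) hTH

lemma not_good_empty {F : Finset (Finset X)} {p ρ : ℝ} (hw : IsWeaklySmall F p) (hρ0 : 0 ≤ ρ)
    (hρ : ρ ≤ p) : ¬ Good F ρ ∅ := by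
  intro hgood
  obtain ⟨g, ⟨hg, hc⟩, hcost⟩ := hw
  have h1 := hgood g (fun S => (hg S).1) fun H hH _ => hc H hH
  have h2 : ∑ S, g S * ρ ^ (S \ ∅).card ≤ ∑ S : Finset X, g S * p ^ S.card := by
    apply Finset.sum_le_sum
    intro S _
    rw [Finset.sdiff_empty]
    exact mul_le_mul_of_nonneg_left (pow_le_pow_left₀ hρ0 hρ _) (hg S).1
  linarith

/-- The weighted cost of the members of `𝒯` containing `S`, relative to `S`. -/
noncomputable def Zg (𝒯 : Finset (Finset X)) (g : Finset X → ℝ) (r : ℝ) (S : Finset X) : ℝ :=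
  ∑ T ∈ 𝒯 with S ⊆ T, g T * r ^ (T \ S).card

/-- The combinatorial bound behind the group measure. -/
lemma group_sum_le_w (𝒯 : Finset (Finset X)) (g : Finset X → ℝ) (hg : ∀ T, 0 ≤ g T)
    {r K ρ Λ : ℝ} (hr : 0 ≤ r) (hK : 0 ≤ K) (hρ : 0 ≤ ρ)
    (C D : Finset X) (hCD : Disjoint D C)
    (hmax : ∀ A : Finset X, Disjoint A C → Zg 𝒯 g r (C ∪ A) ≤ K ^ A.card * Λ) :
    ∑ T ∈ 𝒯 with C ⊆ T, g T * r ^ (T \ C).card * ρ ^ (D \ T).card
      ≤ Λ * (K * r + ρ) ^ D.card := by
  have hfib : ∑ T ∈ 𝒯 with C ⊆ T, g T * r ^ (T \ C).card * ρ ^ (D \ T).card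
      = ∑ A ∈ D.powerset, ∑ T ∈ (𝒯.filter (fun T => C ⊆ T)) with D ∩ T = A,
          g T * r ^ (T \ C).card * ρ ^ (D \ T).card := by
    symm
    apply Finset.sum_fiberwise_of_maps_to
    intro T _
    exact Finset.mem_powerset.mpr Finset.inter_subset_left
  rw [hfib, ← Finset.sum_pow_mul_eq_add_pow, Finset.mul_sum]
  apply Finset.sum_le_sum
  intro A hA
  have hAD : A ⊆ D := Finset.mem_powerset.mp hA
  have hAC : Disjoint A C := Finset.disjoint_of_subset_left hAD hCD
  have hterm : ∀ T ∈ (𝒯.filter (fun T => C ⊆ T)).filter (fun T => D ∩ T = A),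
      g T * r ^ (T \ C).card * ρ ^ (D \ T).card
        = ρ ^ (D.card - A.card) * r ^ A.card * (g T * r ^ (T \ (C ∪ A)).card) := by
    intro T hT
    rw [Finset.mem_filter, Finset.mem_filter] at hT
    obtain ⟨⟨_, hCT⟩, hDT⟩ := hT
    have hcard1 : (D \ T).card = D.card - A.card := by
      rw [← hDT, Finset.card_sdiff, Finset.inter_comm]
    have hATsub : A ⊆ T := by
      rw [← hDT]
      exact Finset.inter_subset_right
    have hsplit : T \ C = A ∪ (T \ (C ∪ A)) := by
      ext x
      simp only [Finset.mem_sdiff, Finset.mem_union, not_or]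
      constructor
      · rintro ⟨hxT, hxC⟩
        by_cases hxA : x ∈ A
        · exact Or.inl hxA
        · exact Or.inr ⟨hxT, hxC, hxA⟩
      · rintro (hxA | ⟨hxT, hxC, _⟩)
        · exact ⟨hATsub hxA, fun hxC => (Finset.disjoint_left.mp hAC hxA) hxC⟩
        · exact ⟨hxT, hxC⟩
    have hdisj : Disjoint A (T \ (C ∪ A)) := by
      rw [Finset.disjoint_left]
      intro x hxA hx
      rw [Finset.mem_sdiff, Finset.mem_union, not_or] at hx
      exact hx.2.2 hxA
    have hcard2 : (T \ C).card = A.card + (T \ (C ∪ A)).card := by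
      rw [hsplit, Finset.card_union_of_disjoint hdisj]
    rw [hcard1, hcard2, pow_add]
    ring
  rw [Finset.sum_congr rfl hterm, ← Finset.mul_sum]
  have hsub : ((𝒯.filter (fun T => C ⊆ T)).filter (fun T => D ∩ T = A))
      ⊆ 𝒯.filter (fun T => C ∪ A ⊆ T) := by
    intro T hT
    rw [Finset.mem_filter, Finset.mem_filter] at hT
    obtain ⟨⟨hT1, hCT⟩, hDT⟩ := hT
    rw [Finset.mem_filter]
    refine ⟨hT1, Finset.union_subset hCT ?_⟩
    rw [← hDT]
    exact Finset.inter_subset_right
  have hle : ∑ T ∈ (𝒯.filter (fun T => C ⊆ T)).filter (fun T => D ∩ T = A),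
      g T * r ^ (T \ (C ∪ A)).card ≤ Zg 𝒯 g r (C ∪ A) := by
    apply Finset.sum_le_sum_of_subset_of_nonneg hsub
    intro T _ _
    exact mul_nonneg (hg T) (pow_nonneg hr _)
  have hnn : 0 ≤ ρ ^ (D.card - A.card) * r ^ A.card := by positivity
  calc ρ ^ (D.card - A.card) * r ^ A.card * ∑ T ∈ (𝒯.filter (fun T => C ⊆ T)).filter
        (fun T => D ∩ T = A), g T * r ^ (T \ (C ∪ A)).card
      ≤ ρ ^ (D.card - A.card) * r ^ A.card * Zg 𝒯 g r (C ∪ A) :=
        mul_le_mul_of_nonneg_left hle hnn
    _ ≤ ρ ^ (D.card - A.card) * r ^ A.card * (K ^ A.card * Λ) :=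
        mul_le_mul_of_nonneg_left (hmax A hAC) hnn
    _ = Λ * ((K * r) ^ A.card * ρ ^ (D.card - A.card)) := by
        rw [mul_pow]
        ring

/-- A set `C` maximal for `Zg / K ^ #` is good, with a larger constant. -/
lemma good_of_max_w {F : Finset (Finset X)} {𝒯 : Finset (Finset X)} {g : Finset X → ℝ}
    (hg : ∀ T, 0 ≤ g T) {r K ρ : ℝ} (hr : 0 ≤ r) (hK : 0 ≤ K) (hρ : 0 ≤ ρ)
    (hgood : ∀ T ∈ 𝒯, 0 < g T → Good F ρ T) (C : Finset X)
    (hpos : 0 < Zg 𝒯 g r C)
    (hmax : ∀ A : Finset X, Disjoint A C → Zg 𝒯 g r (C ∪ A) ≤ K ^ A.card * Zg 𝒯 g r C) :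
    Good F (K * r + ρ) C := by
  intro g' hg' hcov
  have h1 : Zg 𝒯 g r C ≤ ∑ B, g' B * (Zg 𝒯 g r C * (K * r + ρ) ^ (B \ C).card) := by
    calc Zg 𝒯 g r C = ∑ T ∈ 𝒯 with C ⊆ T, g T * r ^ (T \ C).card := rfl
      _ ≤ ∑ T ∈ 𝒯 with C ⊆ T, (g T * r ^ (T \ C).card) * ∑ B, g' B * ρ ^ (B \ T).card := by
          apply Finset.sum_le_sum
          intro T hT
          have hT' := Finset.mem_filter.mp hT
          rcases (hg T).eq_or_lt with h0 | hp
          · simp [← h0]
          · have h2 := hgood T hT'.1 hp g' hg' fun H hH hTH => hcov H hH (hT'.2.trans hTH)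
            have hn : 0 ≤ g T * r ^ (T \ C).card := mul_nonneg (hg T) (pow_nonneg hr _)
            nlinarith
      _ = ∑ B, g' B * ∑ T ∈ 𝒯 with C ⊆ T, g T * r ^ (T \ C).card * ρ ^ (B \ T).card := by
          simp_rw [Finset.mul_sum]
          rw [Finset.sum_comm]
          apply Finset.sum_congr rfl
          intro B _
          apply Finset.sum_congr rfl
          intro T _
          ring
      _ ≤ ∑ B, g' B * (Zg 𝒯 g r C * (K * r + ρ) ^ (B \ C).card) := by
          apply Finset.sum_le_sum
          intro B _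
          apply mul_le_mul_of_nonneg_left _ (hg' B)
          have hsame : ∑ T ∈ 𝒯 with C ⊆ T, g T * r ^ (T \ C).card * ρ ^ (B \ T).card
              = ∑ T ∈ 𝒯 with C ⊆ T, g T * r ^ (T \ C).card * ρ ^ ((B \ C) \ T).card := by
            apply Finset.sum_congr rfl
            intro T hT
            have hCT := (Finset.mem_filter.mp hT).2
            have hset : B \ T = (B \ C) \ T := by
              ext x
              simp only [Finset.mem_sdiff]
              constructor
              · rintro ⟨h1, h2⟩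
                exact ⟨⟨h1, fun h => h2 (hCT h)⟩, h2⟩
              · rintro ⟨⟨h1, _⟩, h2⟩
                exact ⟨h1, h2⟩
            rw [hset]
          rw [hsame]
          exact group_sum_le_w 𝒯 g hg hr hK hρ C (B \ C) Finset.sdiff_disjoint hmax
  have h2 : Zg 𝒯 g r C * 1 ≤ Zg 𝒯 g r C * ∑ B, g' B * (K * r + ρ) ^ (B \ C).card := by
    rw [mul_one]
    refine h1.trans (le_of_eq ?_)
    rw [Finset.mul_sum]
    apply Finset.sum_congr rfl
    intro B _
    ring
  exact le_of_mul_le_mul_left h2 hpos

/-- The cost of the members containing `S`, relative to `S`. -/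
noncomputable def Z (𝒯 : Finset (Finset X)) (r : ℝ) (S : Finset X) : ℝ :=
  ∑ T ∈ 𝒯 with S ⊆ T, r ^ (T \ S).card

lemma Z_eq_Zg (𝒯 : Finset (Finset X)) (r : ℝ) (S : Finset X) :
    Z 𝒯 r S = Zg 𝒯 (fun _ => 1) r S := by
  simp [Z, Zg]

lemma Z_nonneg (𝒯 : Finset (Finset X)) {r : ℝ} (hr : 0 ≤ r) (S : Finset X) : 0 ≤ Z 𝒯 r S :=
  Finset.sum_nonneg fun _ _ => pow_nonneg hr _

lemma Z_empty (𝒯 : Finset (Finset X)) (r : ℝ) : Z 𝒯 r ∅ = ∑ T ∈ 𝒯, r ^ T.card := by
  simp [Z]

lemma good_of_max {F : Finset (Finset X)} {𝒯 : Finset (Finset X)} {r K ρ : ℝ} (hr : 0 ≤ r)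
    (hK : 0 ≤ K) (hρ : 0 ≤ ρ) (hgood : ∀ T ∈ 𝒯, Good F ρ T) (C : Finset X)
    (hpos : 0 < Z 𝒯 r C)
    (hmax : ∀ A : Finset X, Disjoint A C → Z 𝒯 r (C ∪ A) ≤ K ^ A.card * Z 𝒯 r C) :
    Good F (K * r + ρ) C := by
  simp only [Z_eq_Zg] at hpos hmax
  exact good_of_max_w (fun _ => zero_le_one) hr hK hρ (fun T hT _ => hgood T hT) C hpos hmax

/-- One extraction: a cover member family of positive cost contains a nonempty set `C` which is
good at the next constant and whose cost is at most the removed share divided by `K`. -/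
lemma exists_center {F : Finset (Finset X)} {𝒯 : Finset (Finset X)} {p r K ρ : ℝ} (hr : 0 < r)
    (hK : 1 ≤ K) (hρ : 0 ≤ ρ) (hw : IsWeaklySmall F p) (hp : K * r + ρ ≤ p)
    (hgood : ∀ T ∈ 𝒯, Good F ρ T) (hW : 0 < ∑ T ∈ 𝒯, r ^ T.card) :
    ∃ C : Finset X, Good F (K * r + ρ) C ∧ C.Nonempty ∧
      (∃ T ∈ 𝒯, C ⊆ T) ∧
      r ^ C.card * K * ∑ T ∈ 𝒯, r ^ T.card ≤ ∑ T ∈ 𝒯 with C ⊆ T, r ^ T.card := by
  have hK0 : 0 < K := by linarith
  obtain ⟨C, -, hC⟩ := Finset.exists_max_image (univ : Finset (Finset X))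
    (fun S => Z 𝒯 r S / K ^ S.card) ⟨∅, Finset.mem_univ _⟩
  have hWC : ∑ T ∈ 𝒯, r ^ T.card ≤ Z 𝒯 r C / K ^ C.card := by
    have := hC ∅ (Finset.mem_univ _)
    simpa [Z_empty] using this
  have hCge : K ^ C.card * ∑ T ∈ 𝒯, r ^ T.card ≤ Z 𝒯 r C := by
    have hKpos : 0 < K ^ C.card := by positivity
    rw [le_div_iff₀ hKpos] at hWC
    linarith
  have hpos : 0 < Z 𝒯 r C := lt_of_lt_of_le (by positivity) hCge
  have hmax : ∀ A : Finset X, Disjoint A C → Z 𝒯 r (C ∪ A) ≤ K ^ A.card * Z 𝒯 r C := by
    intro A hA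
    have h1 := hC (C ∪ A) (Finset.mem_univ _)
    have hcard : (C ∪ A).card = C.card + A.card :=
      Finset.card_union_of_disjoint hA.symm
    rw [hcard, pow_add, div_le_div_iff₀ (by positivity) (by positivity)] at h1
    have hKC : 0 < K ^ C.card := by positivity
    have : Z 𝒯 r (C ∪ A) * K ^ C.card ≤ (K ^ A.card * Z 𝒯 r C) * K ^ C.card := by
      nlinarith
    exact le_of_mul_le_mul_right this hKC
  have hgoodC : Good F (K * r + ρ) C := good_of_max hr.le hK0.le hρ hgood C hpos hmax
  have hne : C.Nonempty := by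
    rw [Finset.nonempty_iff_ne_empty]
    rintro rfl
    have hnn : 0 ≤ K * r + ρ := by positivity
    exact not_good_empty hw hnn hp hgoodC
  refine ⟨C, hgoodC, hne, ?_, ?_⟩
  · by_contra hno
    push Not at hno
    have : Z 𝒯 r C = 0 := by
      apply Finset.sum_eq_zero_iff_of_nonneg (fun _ _ => by positivity) |>.mpr
      intro T hT
      exact absurd (Finset.mem_filter.mp hT).2 (hno T (Finset.mem_filter.mp hT).1)
    linarith
  · have hshare : ∑ T ∈ 𝒯 with C ⊆ T, r ^ T.card = r ^ C.card * Z 𝒯 r C := by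
      rw [Z, Finset.mul_sum]
      apply Finset.sum_congr rfl
      intro T hT
      have hCT := (Finset.mem_filter.mp hT).2
      rw [← pow_add, add_comm, Finset.card_sdiff_add_card_eq_card hCT]
    rw [hshare]
    have hKle : K ≤ K ^ C.card := by
      have hcard : C.card ≠ 0 := (Finset.card_pos.mpr hne).ne'
      exact le_self_pow₀ hK hcard
    have hW0 := hW.le
    have hrpow : 0 ≤ r ^ C.card := by positivity
    have : K * ∑ T ∈ 𝒯, r ^ T.card ≤ Z 𝒯 r C := by
      refine le_trans ?_ hCge
      exact mul_le_mul_of_nonneg_right hKle hW0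
    calc r ^ C.card * K * ∑ T ∈ 𝒯, r ^ T.card
        = r ^ C.card * (K * ∑ T ∈ 𝒯, r ^ T.card) := by ring
      _ ≤ r ^ C.card * Z 𝒯 r C := mul_le_mul_of_nonneg_left this hrpow

/-- One level: from a family of good sets of cost `W` to a coarser family of good sets, at the next
constant, of cost at most `τ + (1 + log (max W τ / τ)) / K`. -/
lemma level {F : Finset (Finset X)} {p r K ρ τ : ℝ} (hr : 0 < r)
    (hK : 1 ≤ K) (hρ : 0 ≤ ρ) (hτ : 0 < τ) (hw : IsWeaklySmall F p) (hp : K * r + ρ ≤ p) :
    ∀ (n : ℕ) (𝒯 : Finset (Finset X)), 𝒯.card = n → (∀ T ∈ 𝒯, Good F ρ T) →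
      ∃ 𝒯' : Finset (Finset X), (∀ T ∈ 𝒯', Good F (K * r + ρ) T) ∧
        (∀ T ∈ 𝒯, ∃ T' ∈ 𝒯', T' ⊆ T) ∧
        ∑ T ∈ 𝒯', r ^ T.card
          ≤ τ + (1 + Real.log (max (∑ T ∈ 𝒯, r ^ T.card) τ / τ)) / K := by
  have hK0 : 0 < K := by linarith
  have hinc : ρ ≤ K * r + ρ := by
    have : 0 ≤ K * r := by positivity
    linarith
  intro n
  induction n using Nat.strong_induction_on with
  | _ n ih =>
    intro 𝒯 hcard hgood
    by_cases hWτ : ∑ T ∈ 𝒯, r ^ T.card ≤ τ
    · refine ⟨𝒯, fun T hT => good_mono hρ hinc (hgood T hT), fun T hT => ⟨T, hT, Subset.rfl⟩, ?_⟩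
      have hmax : max (∑ T ∈ 𝒯, r ^ T.card) τ = τ := max_eq_right hWτ
      rw [hmax, div_self hτ.ne', Real.log_one, add_zero]
      have : 0 ≤ 1 / K := by positivity
      linarith
    · push Not at hWτ
      have hW : 0 < ∑ T ∈ 𝒯, r ^ T.card := hτ.trans hWτ
      obtain ⟨C, hgoodC, hne, ⟨T₀, hT₀, hCT₀⟩, hshare⟩ := exists_center hr hK hρ hw hp hgood hW
      set W := ∑ T ∈ 𝒯, r ^ T.card with hWdef
      set rem := 𝒯.filter (fun T => ¬ C ⊆ T) with hrem
      have hsplit : ∑ T ∈ 𝒯 with C ⊆ T, r ^ T.card + ∑ T ∈ rem, r ^ T.card = W := by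
        rw [hrem, hWdef]
        exact Finset.sum_filter_add_sum_filter_not _ _ _
      set R := ∑ T ∈ rem, r ^ T.card with hRdef
      have hR0 : 0 ≤ R := Finset.sum_nonneg fun _ _ => by positivity
      have hremgood : ∀ T ∈ rem, Good F ρ T := fun T hT =>
        hgood T (Finset.mem_filter.mp hT).1
      have hcost : r ^ C.card * K * W ≤ W - R := by linarith
      have hcostC : r ^ C.card ≤ (W - R) / (K * W) := by
        rw [le_div_iff₀ (by positivity)]
        linarith
      have hmaxW : max W τ = W := max_eq_left hWτ.le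
      have hcover : ∀ 𝒰 : Finset (Finset X), (∀ T ∈ rem, ∃ T' ∈ 𝒰, T' ⊆ T) →
          ∀ T ∈ 𝒯, ∃ T' ∈ insert C 𝒰, T' ⊆ T := by
        intro 𝒰 h𝒰 T hT
        by_cases hCT : C ⊆ T
        · exact ⟨C, Finset.mem_insert_self _ _, hCT⟩
        · obtain ⟨T', hT', hsub⟩ := h𝒰 T (Finset.mem_filter.mpr ⟨hT, hCT⟩)
          exact ⟨T', Finset.mem_insert_of_mem hT', hsub⟩
      have hsumins : ∀ 𝒰 : Finset (Finset X), ∑ T ∈ insert C 𝒰, r ^ T.card
          ≤ r ^ C.card + ∑ T ∈ 𝒰, r ^ T.card := by
        intro 𝒰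
        by_cases hCU : C ∈ 𝒰
        · rw [Finset.insert_eq_of_mem hCU]
          have : 0 ≤ r ^ C.card := by positivity
          linarith
        · rw [Finset.sum_insert hCU]
      have hlogW : 0 ≤ Real.log (W / τ) :=
        Real.log_nonneg (by rw [le_div_iff₀ hτ]; linarith)
      have hfrac : (W - R) / W ≤ 1 := by
        rw [div_le_one hW]
        linarith
      by_cases hRτ : R ≤ τ
      · refine ⟨insert C rem, ?_, hcover rem fun T hT => ⟨T, hT, Subset.rfl⟩, ?_⟩
        · intro T hT
          rcases Finset.mem_insert.mp hT with rfl | hT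
          · exact hgoodC
          · exact good_mono hρ hinc (hremgood T hT)
        · refine (hsumins rem).trans ?_
          rw [hmaxW]
          have h1 : (W - R) / (K * W) = ((W - R) / W) / K := by
            field_simp
          have h2 : ((W - R) / W) / K ≤ 1 / K :=
            div_le_div_of_nonneg_right hfrac hK0.le
          have h3 : 1 / K ≤ (1 + Real.log (W / τ)) / K :=
            div_le_div_of_nonneg_right (by linarith) hK0.le
          have h4 : r ^ C.card ≤ 1 / K := by
            rw [h1] at hcostC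
            linarith
          linarith
      · push Not at hRτ
        have hcardrem : rem.card < n := by
          rw [← hcard]
          apply Finset.card_lt_card
          rw [Finset.ssubset_iff_of_subset (Finset.filter_subset _ _)]
          refine ⟨T₀, hT₀, ?_⟩
          intro h
          exact (Finset.mem_filter.mp h).2 hCT₀
        obtain ⟨𝒰, hU1, hU2, hU3⟩ := ih rem.card hcardrem rem rfl hremgood
        refine ⟨insert C 𝒰, ?_, hcover 𝒰 hU2, ?_⟩
        · intro T hT
          rcases Finset.mem_insert.mp hT with rfl | hT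
          · exact hgoodC
          · exact hU1 T hT
        · refine (hsumins 𝒰).trans ?_
          rw [hmaxW]
          have hRmax : max R τ = R := max_eq_left hRτ.le
          rw [← hRdef, hRmax] at hU3
          have hRpos : 0 < R := hτ.trans hRτ
          have hlog : (W - R) / W ≤ Real.log (W / τ) - Real.log (R / τ) := by
            have hx : 0 < R / W := div_pos hRpos hW
            have h1 := Real.log_le_sub_one_of_pos hx
            have h2 : Real.log (R / W) = Real.log (R / τ) - Real.log (W / τ) := by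
              rw [Real.log_div hRpos.ne' hW.ne', Real.log_div hRpos.ne' hτ.ne',
                Real.log_div hW.ne' hτ.ne']
              ring
            have h3 : (W - R) / W = 1 - R / W := by
              field_simp
            rw [h3]
            linarith
          have h1 : (W - R) / (K * W) = ((W - R) / W) / K := by
            field_simp
          rw [h1] at hcostC
          have h5 : ((W - R) / W) / K ≤ (Real.log (W / τ) - Real.log (R / τ)) / K :=
            div_le_div_of_nonneg_right hlog hK0.le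
          have h6 : (1 + Real.log (R / τ)) / K + (Real.log (W / τ) - Real.log (R / τ)) / K
              = (1 + Real.log (W / τ)) / K := by
            rw [← add_div]
            congr 1
            ring
          linarith

lemma tower_pos (j : ℕ) : 1 ≤ tower j := by
  cases j with
  | zero => simp [tower]
  | succ j => exact Nat.one_le_two_pow

/-- Iterating the levels along the tower. -/
lemma levels {F : Finset (Finset X)} {p r ρ₀ : ℝ} (hr : 0 < r) (hρ₀ : 0 ≤ ρ₀)
    (hw : IsWeaklySmall F p) :
    ∀ (j i : ℕ) (𝒯 : Finset (Finset X)), Covers 𝒯 F →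
      (∀ T ∈ 𝒯, Good F (ρ₀ + (i : ℝ) * (16 * r)) T) →
      ∑ T ∈ 𝒯, r ^ T.card ≤ (tower j : ℝ) →
      ρ₀ + ((i : ℝ) + j + 1) * (16 * r) ≤ p → IsSmall F r := by
  have hlog2 := Real.log_two_lt_d9
  have hlog2pos : 0 < Real.log 2 := Real.log_pos (by norm_num)
  have hτ : (0 : ℝ) < 1 / 8 := by norm_num
  intro j
  induction j with
  | zero =>
    intro i 𝒯 hcov hgood hcost hp
    have hρ : (0 : ℝ) ≤ ρ₀ + (i : ℝ) * (16 * r) := by positivity
    have hp' : 16 * r + (ρ₀ + (i : ℝ) * (16 * r)) ≤ p := by
      simp only [Nat.cast_zero] at hp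
      nlinarith
    obtain ⟨𝒯', _, h2, h3⟩ := level hr (by norm_num) hρ hτ hw hp' 𝒯.card 𝒯 rfl hgood
    refine ⟨𝒯', ?_, ?_⟩
    · intro H hH
      obtain ⟨T, hT, hTH⟩ := hcov H hH
      obtain ⟨T', hT', hsub⟩ := h2 T hT
      exact ⟨T', hT', hsub.trans hTH⟩
    · refine h3.trans ?_
      have hc1 : ∑ T ∈ 𝒯, r ^ T.card ≤ 1 := by simpa [tower] using hcost
      have hmaxle : max (∑ T ∈ 𝒯, r ^ T.card) (1 / 8) ≤ 1 := max_le hc1 (by norm_num)
      have hmaxpos : 0 < max (∑ T ∈ 𝒯, r ^ T.card) (1 / 8 : ℝ) := lt_max_of_lt_right hτ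
      have hlog : Real.log (max (∑ T ∈ 𝒯, r ^ T.card) (1 / 8) / (1 / 8)) ≤ 3 * Real.log 2 := by
        have h8 : (8 : ℝ) = 2 ^ 3 := by norm_num
        calc Real.log (max (∑ T ∈ 𝒯, r ^ T.card) (1 / 8) / (1 / 8))
            ≤ Real.log 8 := by
              apply Real.log_le_log (by positivity)
              rw [div_le_iff₀ hτ]
              linarith
          _ = 3 * Real.log 2 := by
              rw [h8, Real.log_pow]
              norm_num
      have : (1 + Real.log (max (∑ T ∈ 𝒯, r ^ T.card) (1 / 8) / (1 / 8))) / 16 ≤ 3 / 8 := by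
        rw [div_le_iff₀ (by norm_num)]
        linarith
      linarith
  | succ j ih =>
    intro i 𝒯 hcov hgood hcost hp
    have hρ : (0 : ℝ) ≤ ρ₀ + (i : ℝ) * (16 * r) := by positivity
    have hrp : 0 ≤ 16 * r := by positivity
    have hp' : 16 * r + (ρ₀ + (i : ℝ) * (16 * r)) ≤ p := by
      push_cast at hp
      have hj : (0 : ℝ) ≤ (j : ℝ) + 1 := by positivity
      nlinarith
    obtain ⟨𝒯', h1, h2, h3⟩ := level hr (by norm_num) hρ hτ hw hp' 𝒯.card 𝒯 rfl hgood
    have hcov' : Covers 𝒯' F := by
      intro H hH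
      obtain ⟨T, hT, hTH⟩ := hcov H hH
      obtain ⟨T', hT', hsub⟩ := h2 T hT
      exact ⟨T', hT', hsub.trans hTH⟩
    have hgood' : ∀ T ∈ 𝒯', Good F (ρ₀ + ((i + 1 : ℕ) : ℝ) * (16 * r)) T := by
      intro T hT
      have := h1 T hT
      have he : 16 * r + (ρ₀ + (i : ℝ) * (16 * r)) = ρ₀ + ((i + 1 : ℕ) : ℝ) * (16 * r) := by
        push_cast
        ring
      rwa [he] at this
    have htow : (1 : ℝ) ≤ (tower j : ℝ) := by exact_mod_cast tower_pos j
    have hcost' : ∑ T ∈ 𝒯', r ^ T.card ≤ (tower j : ℝ) := by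
      refine h3.trans ?_
      have hc1 : ∑ T ∈ 𝒯, r ^ T.card ≤ (2 : ℝ) ^ tower j := by
        have : ((tower (j + 1) : ℕ) : ℝ) = (2 : ℝ) ^ tower j := by
          simp [tower]
        rw [← this]
        exact hcost
      have h2pow : (1 : ℝ) ≤ (2 : ℝ) ^ tower j := one_le_pow₀ (by norm_num)
      have hmaxle : max (∑ T ∈ 𝒯, r ^ T.card) (1 / 8) ≤ (2 : ℝ) ^ tower j :=
        max_le hc1 (by linarith)
      have hmaxpos : 0 < max (∑ T ∈ 𝒯, r ^ T.card) (1 / 8 : ℝ) := lt_max_of_lt_right hτ
      have hlog : Real.log (max (∑ T ∈ 𝒯, r ^ T.card) (1 / 8) / (1 / 8))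
          ≤ ((tower j : ℝ) + 3) * Real.log 2 := by
        calc Real.log (max (∑ T ∈ 𝒯, r ^ T.card) (1 / 8) / (1 / 8))
            ≤ Real.log ((2 : ℝ) ^ (tower j + 3)) := by
              apply Real.log_le_log (by positivity)
              rw [div_le_iff₀ hτ, pow_add]
              have he : (2 : ℝ) ^ tower j * 2 ^ 3 * (1 / 8) = 2 ^ tower j := by ring
              rw [he]
              exact hmaxle
          _ = ((tower j : ℝ) + 3) * Real.log 2 := by
              rw [Real.log_pow]
              push_cast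
              ring
      have : (1 + Real.log (max (∑ T ∈ 𝒯, r ^ T.card) (1 / 8) / (1 / 8))) / 16
          ≤ (tower j : ℝ) * (3 / 4) := by
        rw [div_le_iff₀ (by norm_num)]
        nlinarith
      linarith
    refine ih (i + 1) 𝒯' hcov' hgood' hcost' ?_
    push_cast at hp ⊢
    linarith


/-- A fractional cover with nonnegative weights, without an upper bound on the weights. -/
def FC (g : Finset X → ℝ) (𝔽 : Finset (Finset X)) : Prop :=
  (∀ S, 0 ≤ g S) ∧ ∀ H ∈ 𝔽, 1 ≤ ∑ S ∈ H.powerset, g S

/-- The cost of a weight function at the rate `ρ`. -/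
noncomputable def cost (g : Finset X → ℝ) (ρ : ℝ) : ℝ := ∑ S, g S * ρ ^ S.card

/-- An optimal fractional cover exists. -/
lemma exists_opt (𝔽 : Finset (Finset X)) {y : ℝ} (hy : 0 ≤ y) :
    ∃ g, FC g 𝔽 ∧ ∀ g', FC g' 𝔽 → cost g y ≤ cost g' y := by
  let K : Set (Finset X → ℝ) :=
    {g | (∀ S, g S ∈ Set.Icc (0 : ℝ) 1) ∧ ∀ H ∈ 𝔽, 1 ≤ ∑ S ∈ H.powerset, g S}
  have hcomp : IsCompact K := by
    have hbox : IsCompact (Set.pi Set.univ (fun _ : Finset X => Set.Icc (0 : ℝ) 1)) :=
      isCompact_univ_pi fun _ => isCompact_Icc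
    have hclosed : IsClosed {g : Finset X → ℝ | ∀ H ∈ 𝔽, 1 ≤ ∑ S ∈ H.powerset, g S} := by
      simp only [Set.setOf_forall]
      exact isClosed_biInter fun H _ => isClosed_le continuous_const
        (continuous_finset_sum _ fun S _ => continuous_apply S)
    have hK : K = (Set.pi Set.univ (fun _ : Finset X => Set.Icc (0 : ℝ) 1)) ∩
        {g : Finset X → ℝ | ∀ H ∈ 𝔽, 1 ≤ ∑ S ∈ H.powerset, g S} := by
      ext g
      constructor
      · rintro ⟨h1, h2⟩
        exact ⟨fun S _ => h1 S, h2⟩
      · rintro ⟨h1, h2⟩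
        exact ⟨fun S => h1 S (Set.mem_univ S), h2⟩
    rw [hK]
    exact hbox.inter_right hclosed
  have hne : K.Nonempty := by
    refine ⟨fun _ => 1, fun S => by simp, fun H _ => ?_⟩
    have h := Finset.single_le_sum (f := fun _ : Finset X => (1 : ℝ)) (s := H.powerset)
      (fun _ _ => zero_le_one) (Finset.mem_powerset.mpr (Finset.empty_subset H))
    exact h
  have hcont : ContinuousOn (fun g : Finset X → ℝ => cost g y) K := by
    apply Continuous.continuousOn
    unfold cost
    exact continuous_finset_sum _ fun S _ => (continuous_apply S).mul continuous_const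
  obtain ⟨g, hgK, hmin⟩ := hcomp.exists_isMinOn hne hcont
  refine ⟨g, ⟨fun S => (hgK.1 S).1, hgK.2⟩, ?_⟩
  intro g' hg'
  have hg''K : (fun S => min (g' S) 1) ∈ K := by
    refine ⟨fun S => ⟨le_min (hg'.1 S) zero_le_one, min_le_right _ _⟩, fun H hH => ?_⟩
    by_cases hbig : ∃ S ∈ H.powerset, 1 ≤ g' S
    · obtain ⟨S, hS, hS1⟩ := hbig
      have h := Finset.single_le_sum (f := fun S => min (g' S) 1) (s := H.powerset)
        (fun S _ => le_min (hg'.1 S) zero_le_one) hS
      have hm : min (g' S) 1 = 1 := min_eq_right hS1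
      simp only [hm] at h
      exact h
    · push Not at hbig
      have hs : ∑ S ∈ H.powerset, min (g' S) 1 = ∑ S ∈ H.powerset, g' S :=
        Finset.sum_congr rfl fun S hS => min_eq_left (hbig S hS).le
      rw [hs]
      exact hg'.2 H hH
  calc cost g y ≤ cost (fun S => min (g' S) 1) y := hmin hg''K
    _ ≤ cost g' y := by
        unfold cost
        apply Finset.sum_le_sum
        intro S _
        exact mul_le_mul_of_nonneg_right (min_le_left _ _) (pow_nonneg hy _)

/-- Every set in the support of an optimal fractional cover is good. -/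
lemma support_good {𝔽 : Finset (Finset X)} {y : ℝ} (hy : 0 < y) {g : Finset X → ℝ} (hg : FC g 𝔽)
    (hopt : ∀ g', FC g' 𝔽 → cost g y ≤ cost g' y) {S : Finset X} (hS : 0 < g S) :
    Good 𝔽 y S := by
  intro g' hg'0 hcov
  by_contra hlt
  push Not at hlt
  let q : Finset X → ℝ := fun A => ∑ B, if S ∪ B = A then g' B else 0
  have hq0 : ∀ A, 0 ≤ q A := fun A => Finset.sum_nonneg fun B _ => by
    split_ifs
    · exact hg'0 B
    · exact le_rfl
  let gt : Finset X → ℝ := fun A => g A - (if A = S then g S else 0) + g S * q A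
  have hgt0 : ∀ A, 0 ≤ gt A := by
    intro A
    have h1 : 0 ≤ g S * q A := mul_nonneg hS.le (hq0 A)
    by_cases hA : A = S
    · simp only [gt, hA, if_true]
      subst hA
      linarith
    · simp only [gt, hA, if_false]
      have := hg.1 A
      linarith
  have hqsum : ∀ φ : Finset X → ℝ, ∑ A, q A * φ A = ∑ B, g' B * φ (S ∪ B) := by
    intro φ
    simp only [q, Finset.sum_mul]
    rw [Finset.sum_comm]
    apply Finset.sum_congr rfl
    intro B _
    rw [Finset.sum_eq_single (S ∪ B)]
    · simp
    · intro A _ hA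
      rw [if_neg (fun h => hA h.symm), zero_mul]
    · intro h
      exact absurd (Finset.mem_univ _) h
  have hFC : FC gt 𝔽 := by
    refine ⟨hgt0, fun H hH => ?_⟩
    have hsplit : ∑ A ∈ H.powerset, gt A = ∑ A ∈ H.powerset, g A
        - (∑ A ∈ H.powerset, if A = S then g S else 0) + g S * ∑ A ∈ H.powerset, q A := by
      simp only [gt, Finset.sum_add_distrib, Finset.sum_sub_distrib, Finset.mul_sum]
    rw [hsplit]
    have hg1 := hg.2 H hH
    by_cases hSH : S ⊆ H
    · have h1 : (∑ A ∈ H.powerset, if A = S then g S else 0) = g S := by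
        rw [Finset.sum_ite_eq' H.powerset S]
        simp [hSH]
      have h2 : 1 ≤ ∑ A ∈ H.powerset, q A := by
        have h3 : ∑ B ∈ H.powerset, g' B ≤ ∑ A ∈ H.powerset, q A := by
          have h4 : ∑ A ∈ H.powerset, q A = ∑ B, ∑ A ∈ H.powerset, if S ∪ B = A then g' B else 0 := by
            simp only [q]
            rw [Finset.sum_comm]
          rw [h4, ← Finset.sum_subset (Finset.subset_univ H.powerset)]
          · apply Finset.sum_le_sum
            intro B hB
            have hBH := Finset.mem_powerset.mp hB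
            have hmem : S ∪ B ∈ H.powerset :=
              Finset.mem_powerset.mpr (Finset.union_subset hSH hBH)
            rw [Finset.sum_ite_eq H.powerset (S ∪ B)]
            simp [hmem]
          · intro B _ hB
            apply Finset.sum_eq_zero
            intro A hA
            rw [if_neg]
            intro h
            apply hB
            rw [Finset.mem_powerset] at hA ⊢
            exact Finset.subset_union_right.trans (h ▸ hA)
        exact (hcov H hH hSH).trans h3
      rw [h1]
      nlinarith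
    · have h1 : (∑ A ∈ H.powerset, if A = S then g S else 0) = 0 := by
        rw [Finset.sum_ite_eq' H.powerset S]
        simp [hSH]
      have h2 : 0 ≤ g S * ∑ A ∈ H.powerset, q A :=
        mul_nonneg hS.le (Finset.sum_nonneg fun A _ => hq0 A)
      rw [h1]
      linarith
  have hcostlt : cost gt y < cost g y := by
    have h1 : cost gt y = cost g y - g S * y ^ S.card
        + g S * ∑ B, g' B * y ^ (S ∪ B).card := by
      have h2 := hqsum (fun A => y ^ A.card)
      simp only [cost, gt, add_mul, sub_mul, Finset.sum_add_distrib, Finset.sum_sub_distrib]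
      congr 1
      · congr 1
        rw [Finset.sum_eq_single S]
        · simp
        · intro A _ hA
          simp [hA]
        · intro h
          exact absurd (Finset.mem_univ _) h
      · rw [← h2, Finset.mul_sum]
        apply Finset.sum_congr rfl
        intro A _
        ring
    have h3 : ∑ B, g' B * y ^ (S ∪ B).card
        = y ^ S.card * ∑ B, g' B * y ^ (B \ S).card := by
      rw [Finset.mul_sum]
      apply Finset.sum_congr rfl
      intro B _
      have hc : (S ∪ B).card = S.card + (B \ S).card := by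
        rw [← Finset.union_sdiff_self_eq_union, Finset.card_union_of_disjoint Finset.disjoint_sdiff]
      rw [hc, pow_add]
      ring
    rw [h1, h3]
    have hpos : 0 < g S * y ^ S.card := by positivity
    nlinarith
  have := hopt gt hFC
  linarith

/-- The potential of the first stage. -/
noncomputable def Psi (A M a : ℝ) : ℝ :=
  if a ≤ A / M then M * a else A * (1 + Real.log (a * M / A))

lemma Psi_nonneg {A M a : ℝ} (hA : 0 < A) (hM : 0 < M) (ha : 0 ≤ a) : 0 ≤ Psi A M a := by
  unfold Psi
  split_ifs with h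
  · positivity
  · push Not at h
    have h1 : 1 ≤ a * M / A := by
      rw [div_lt_iff₀ hM] at h
      rw [le_div_iff₀ hA]
      linarith
    have := Real.log_nonneg h1
    positivity

lemma Psi_step {A M : ℝ} (hA : 0 < A) (hM : 0 < M) {a b c : ℝ} (hb : 0 ≤ b) (hab : b ≤ a)
    (ha : 0 < a) (hc0 : 0 ≤ c) (hc1 : c ≤ A / a) (hc2 : c ≤ M) :
    (a - b) * c + Psi A M b ≤ Psi A M a := by
  unfold Psi
  have hab0 : 0 ≤ a - b := by linarith
  by_cases hsmall : a ≤ A / M
  · have hb' : b ≤ A / M := hab.trans hsmall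
    rw [if_pos hsmall, if_pos hb']
    nlinarith
  · rw [if_neg hsmall]
    push Not at hsmall
    have hu1 : 1 < a * M / A := by
      rw [div_lt_iff₀ hM] at hsmall
      rw [lt_div_iff₀ hA]
      linarith
    have hle1 : (a - b) * c ≤ A * (1 - b / a) := by
      have h1 : (a - b) * c ≤ (a - b) * (A / a) := mul_le_mul_of_nonneg_left hc1 hab0
      have h2 : (a - b) * (A / a) = A * (1 - b / a) := by
        field_simp
      linarith
    by_cases hbs : b ≤ A / M
    · rw [if_pos hbs]
      have hlog := Real.one_sub_inv_le_log_of_pos (by positivity : 0 < a * M / A)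
      have hinv : (a * M / A)⁻¹ = A / (a * M) := by
        field_simp
      rw [hinv] at hlog
      have hMA : 0 ≤ M - A / a := by
        have : A / M < a := hsmall
        rw [div_lt_iff₀ hM] at this
        have h3 : A / a ≤ M := by
          rw [div_le_iff₀ ha]
          linarith
        linarith
      have h4 : b * (M - A / a) ≤ A / M * (M - A / a) := mul_le_mul_of_nonneg_right hbs hMA
      have h5 : A / M * (M - A / a) = A * (1 - A / (a * M)) := by
        field_simp
      have h6 : A * (1 - A / (a * M)) ≤ A * Real.log (a * M / A) :=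
        mul_le_mul_of_nonneg_left hlog hA.le
      have h7 : (a - b) * c + M * b ≤ A * (1 - b / a) + M * b := by linarith
      have h8 : A * (1 - b / a) + M * b = A + b * (M - A / a) := by
        field_simp
        ring
      nlinarith
    · rw [if_neg hbs]
      push Not at hbs
      have hbpos : 0 < b := lt_of_le_of_lt (by positivity) hbs
      have hlog := Real.one_sub_inv_le_log_of_pos (by positivity : 0 < a / b)
      have hinv : (a / b)⁻¹ = b / a := by
        field_simp
      rw [hinv] at hlog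
      have hsplit : Real.log (a * M / A) = Real.log (b * M / A) + Real.log (a / b) := by
        rw [← Real.log_mul (by positivity) (by positivity)]
        congr 1
        field_simp
      rw [hsplit]
      have h9 : A * (1 - b / a) ≤ A * Real.log (a / b) := mul_le_mul_of_nonneg_left hlog hA.le
      nlinarith

/-- The first stage: a cover by good sets, with cost controlled by the potential. -/
lemma first_level {F : Finset (Finset X)} {y w A : ℝ} {L : ℕ} (hy : 0 < y) (hw : 0 < w)
    (hA : 0 < A) (hA1 : A < 1) (hsize : ∀ H ∈ F, H.card ≤ L) {g0 : Finset X → ℝ} (hg0 : FC g0 F)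
    (hc0 : cost g0 (y + w) ≤ A) :
    ∀ (n : ℕ) (𝔽 : Finset (Finset X)), 𝔽 ⊆ F → 𝔽.card = n → ∀ a : ℝ,
      (∃ g, FC g 𝔽 ∧ cost g y ≤ a) →
      ∃ 𝒟 : Finset (Finset X), Covers 𝒟 𝔽 ∧ (∀ D ∈ 𝒟, Good F (y + w) D) ∧
        ∑ D ∈ 𝒟, w ^ D.card ≤ Psi A ((1 + w / y) ^ L) a := by
  have hθ : 0 < w / y := div_pos hw hy
  have hM : 0 < (1 + w / y) ^ L := by positivity
  intro n
  induction n using Nat.strong_induction_on with
  | _ n ih =>
    intro 𝔽 hsub hcard a ⟨g1, hg1, hg1c⟩
    have ha0 : 0 ≤ a := by
      refine le_trans ?_ hg1c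
      exact Finset.sum_nonneg fun S _ => mul_nonneg (hg1.1 S) (by positivity)
    by_cases hemp : 𝔽 = ∅
    · subst hemp
      refine ⟨∅, fun H hH => by simp at hH, fun D hD => by simp at hD, ?_⟩
      simpa using Psi_nonneg hA hM ha0
    obtain ⟨g, hg, hopt⟩ := exists_opt 𝔽 hy.le
    have hastar_le : cost g y ≤ a := (hopt g1 hg1).trans hg1c
    obtain ⟨H₀, hH₀⟩ := Finset.nonempty_iff_ne_empty.mpr hemp
    have hapos : 0 < cost g y := by
      have h1 := hg.2 H₀ hH₀
      have h2 : ∃ S ∈ H₀.powerset, 0 < g S := by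
        by_contra hno
        push Not at hno
        have : ∑ S ∈ H₀.powerset, g S ≤ 0 := Finset.sum_nonpos hno
        linarith
      obtain ⟨S, _, hS⟩ := h2
      have h3 := Finset.single_le_sum (f := fun S => g S * y ^ S.card) (s := univ)
        (fun S _ => mul_nonneg (hg.1 S) (by positivity)) (Finset.mem_univ S)
      have h4 : 0 < g S * y ^ S.card := by positivity
      exact lt_of_lt_of_le h4 h3
    set θ := w / y with hθdef
    have hθy : θ * y = w := by
      rw [hθdef]
      field_simp
    obtain ⟨D, -, hD⟩ := Finset.exists_max_image (univ : Finset (Finset X))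
      (fun S => Zg univ g y S / θ ^ S.card) ⟨∅, Finset.mem_univ _⟩
    set Λ := Zg univ g y D / θ ^ D.card with hΛdef
    have hZall : ∀ A' : Finset X, Zg univ g y A' ≤ θ ^ A'.card * Λ := by
      intro A'
      have h1 := hD A' (Finset.mem_univ _)
      have h2 : 0 < θ ^ A'.card := by positivity
      rw [div_le_iff₀ h2] at h1
      linarith
    have hZempty : Zg univ g y ∅ = cost g y := by
      simp [Zg, cost]
    have hΛ : cost g y ≤ Λ := by
      have := hZall ∅
      simpa [hZempty] using this
    have hΛpos : 0 < Λ := hapos.trans_le hΛ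
    have hZD : Zg univ g y D = θ ^ D.card * Λ := by
      rw [hΛdef]
      field_simp
    have hZDpos : 0 < Zg univ g y D := by
      rw [hZD]
      positivity
    have hmaxD : ∀ A' : Finset X, Disjoint A' D →
        Zg univ g y (D ∪ A') ≤ θ ^ A'.card * Zg univ g y D := by
      intro A' hA'
      have h1 := hZall (D ∪ A')
      rw [Finset.card_union_of_disjoint hA'.symm, pow_add] at h1
      rw [hZD]
      calc Zg univ g y (D ∪ A') ≤ θ ^ D.card * θ ^ A'.card * Λ := h1
        _ = θ ^ A'.card * (θ ^ D.card * Λ) := by ring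
    have hgoodS : ∀ T ∈ (univ : Finset (Finset X)), 0 < g T → Good 𝔽 y T :=
      fun T _ hT => support_good hy hg hopt hT
    have hgoodD : Good 𝔽 (θ * y + y) D :=
      good_of_max_w hg.1 hy.le hθ.le hy.le hgoodS D hZDpos hmaxD
    have hyw : θ * y + y = y + w := by
      rw [hθy]
      ring
    rw [hyw] at hgoodD
    have hgoodD' : Good F (y + w) D := good_family_mono hsub hgoodD
    have hg0𝔽 : FC g0 𝔽 := ⟨hg0.1, fun H hH => hg0.2 H (hsub hH)⟩
    have hDne : D.Nonempty := by
      rw [Finset.nonempty_iff_ne_empty]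
      intro hD0
      rw [hD0] at hgoodD
      have h1 := hgoodD g0 hg0.1 fun H hH _ => hg0𝔽.2 H hH
      simp only [Finset.sdiff_empty] at h1
      have h2 : cost g0 (y + w) = ∑ S, g0 S * (y + w) ^ S.card := rfl
      linarith
    have key : ∀ g', FC g' 𝔽 → cost g y ≤ Λ * cost g' (y + w) := by
      intro g' hg'
      calc cost g y = ∑ S, g S * y ^ S.card := rfl
        _ ≤ ∑ S, (g S * y ^ S.card) * ∑ B, g' B * y ^ (B \ S).card := by
            apply Finset.sum_le_sum
            intro S _
            rcases (hg.1 S).eq_or_lt with h0 | hp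
            · simp [← h0]
            · have h2 := hgoodS S (Finset.mem_univ S) hp g' hg'.1 fun H hH _ => hg'.2 H hH
              have hn : 0 ≤ g S * y ^ S.card := by positivity
              nlinarith
        _ = ∑ B, g' B * ∑ S, g S * y ^ S.card * y ^ (B \ S).card := by
            simp_rw [Finset.mul_sum]
            rw [Finset.sum_comm]
            apply Finset.sum_congr rfl
            intro B _
            apply Finset.sum_congr rfl
            intro S _
            ring
        _ ≤ ∑ B, g' B * (Λ * (y + w) ^ B.card) := by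
            apply Finset.sum_le_sum
            intro B _
            apply mul_le_mul_of_nonneg_left _ (hg'.1 B)
            have h3 := group_sum_le_w univ g hg.1 hy.le hθ.le hy.le ∅ B
              (Finset.disjoint_empty_right B) (Λ := Λ) (fun A' _ => by
                rw [Finset.empty_union]
                exact hZall A')
            simp only [Finset.empty_subset, Finset.filter_true, Finset.sdiff_empty] at h3
            rw [hyw] at h3
            exact h3
        _ = Λ * cost g' (y + w) := by
            unfold cost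
            rw [Finset.mul_sum]
            apply Finset.sum_congr rfl
            intro B _
            ring
    have hc1 : 1 / Λ ≤ A / cost g y := by
      rw [div_le_div_iff₀ hΛpos hapos]
      have h1 := key g0 hg0𝔽
      have h2 : Λ * cost g0 (y + w) ≤ Λ * A := mul_le_mul_of_nonneg_left hc0 hΛpos.le
      linarith
    have hc2 : 1 / Λ ≤ (1 + θ) ^ L := by
      let gS : Finset X → ℝ := fun S => if S.card ≤ L then g S else 0
      have hgS : FC gS 𝔽 := by
        refine ⟨fun S => ?_, fun H hH => ?_⟩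
        · simp only [gS]
          split_ifs
          · exact hg.1 S
          · exact le_rfl
        · have h1 : ∑ S ∈ H.powerset, gS S = ∑ S ∈ H.powerset, g S := by
            apply Finset.sum_congr rfl
            intro S hS
            have hSH := Finset.mem_powerset.mp hS
            have h2 : S.card ≤ L := (Finset.card_le_card hSH).trans (hsize H (hsub hH))
            simp [gS, h2]
          rw [h1]
          exact hg.2 H hH
      have h1 := key gS hgS
      have h2 : cost gS (y + w) ≤ (1 + θ) ^ L * cost g y := by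
        unfold cost
        rw [Finset.mul_sum]
        apply Finset.sum_le_sum
        intro S _
        simp only [gS]
        split_ifs with hSL
        · have h3 : y + w = y * (1 + θ) := by
            rw [← hθy]
            ring
          rw [h3, mul_pow]
          have h4 : (1 + θ) ^ S.card ≤ (1 + θ) ^ L :=
            pow_le_pow_right₀ (by linarith) hSL
          have hn : 0 ≤ g S * y ^ S.card := mul_nonneg (hg.1 S) (by positivity)
          calc g S * (y ^ S.card * (1 + θ) ^ S.card)
              = (g S * y ^ S.card) * (1 + θ) ^ S.card := by ring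
            _ ≤ (g S * y ^ S.card) * (1 + θ) ^ L := mul_le_mul_of_nonneg_left h4 hn
            _ = (1 + θ) ^ L * (g S * y ^ S.card) := by ring
        · have hn : 0 ≤ g S * y ^ S.card := mul_nonneg (hg.1 S) (by positivity)
          have hp : 0 ≤ (1 + θ) ^ L := by positivity
          simpa using mul_nonneg hp hn
      have h3 : cost g y ≤ Λ * ((1 + θ) ^ L * cost g y) :=
        h1.trans (mul_le_mul_of_nonneg_left h2 hΛpos.le)
      have h4 : 1 ≤ Λ * (1 + θ) ^ L := by
        have : cost g y * 1 ≤ cost g y * (Λ * (1 + θ) ^ L) := by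
          rw [mul_one]
          calc cost g y ≤ Λ * ((1 + θ) ^ L * cost g y) := h3
            _ = cost g y * (Λ * (1 + θ) ^ L) := by ring
        exact le_of_mul_le_mul_left this hapos
      rw [div_le_iff₀ hΛpos]
      linarith
    let gm : Finset X → ℝ := fun S => if D ⊆ S then 0 else g S
    have hgm0 : ∀ S, 0 ≤ gm S := by
      intro S
      simp only [gm]
      split_ifs
      · exact le_rfl
      · exact hg.1 S
    have hcostm : cost gm y = cost g y - Λ * w ^ D.card := by
      have h1 : cost g y = cost gm y + ∑ S with D ⊆ S, g S * y ^ S.card := by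
        unfold cost
        rw [Finset.sum_filter, ← Finset.sum_add_distrib]
        apply Finset.sum_congr rfl
        intro S _
        simp only [gm]
        split_ifs <;> ring
      have h2 : ∑ S with D ⊆ S, g S * y ^ S.card = Λ * w ^ D.card := by
        have h3 : ∑ S with D ⊆ S, g S * y ^ S.card = y ^ D.card * Zg univ g y D := by
          unfold Zg
          rw [Finset.mul_sum]
          apply Finset.sum_congr rfl
          intro S hS
          have hDS := (Finset.mem_filter.mp hS).2
          have hc : S.card = D.card + (S \ D).card := by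
            rw [add_comm, Finset.card_sdiff_add_card_eq_card hDS]
          rw [hc, pow_add]
          ring
        rw [h3, hZD, ← hθy, mul_pow]
        ring
      linarith
    have hFCm : FC gm (𝔽.filter fun H => ¬ D ⊆ H) := by
      refine ⟨hgm0, fun H hH => ?_⟩
      have hH' := Finset.mem_filter.mp hH
      have h1 : ∑ S ∈ H.powerset, gm S = ∑ S ∈ H.powerset, g S := by
        apply Finset.sum_congr rfl
        intro S hS
        have hSH := Finset.mem_powerset.mp hS
        simp only [gm]
        rw [if_neg]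
        intro hDS
        exact hH'.2 (hDS.trans hSH)
      rw [h1]
      exact hg.2 H hH'.1
    have hwpos : 0 < w ^ D.card := by positivity
    have hprod : 0 < Λ * w ^ D.card := by positivity
    have hex : ∃ H ∈ 𝔽, D ⊆ H := by
      by_contra hno
      push Not at hno
      have hFC' : FC gm 𝔽 := by
        refine ⟨hgm0, fun H hH => ?_⟩
        exact hFCm.2 H (Finset.mem_filter.mpr ⟨hH, hno H hH⟩)
      have := hopt gm hFC'
      linarith
    obtain ⟨H₁, hH₁, hDH₁⟩ := hex
    have hcardlt : (𝔽.filter fun H => ¬ D ⊆ H).card < n := by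
      rw [← hcard]
      apply Finset.card_lt_card
      rw [Finset.ssubset_iff_of_subset (Finset.filter_subset _ _)]
      refine ⟨H₁, hH₁, fun h => (Finset.mem_filter.mp h).2 hDH₁⟩
    obtain ⟨𝒟', h𝒟1, h𝒟2, h𝒟3⟩ := ih _ hcardlt (𝔽.filter fun H => ¬ D ⊆ H)
      ((Finset.filter_subset _ _).trans hsub) rfl (cost gm y) ⟨gm, hFCm, le_rfl⟩
    refine ⟨insert D 𝒟', ?_, ?_, ?_⟩
    · intro H hH
      by_cases hDH : D ⊆ H
      · exact ⟨D, Finset.mem_insert_self _ _, hDH⟩
      · obtain ⟨T, hT, hTH⟩ := h𝒟1 H (Finset.mem_filter.mpr ⟨hH, hDH⟩)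
        exact ⟨T, Finset.mem_insert_of_mem hT, hTH⟩
    · intro T hT
      rcases Finset.mem_insert.mp hT with rfl | hT
      · exact hgoodD'
      · exact h𝒟2 T hT
    · have hsum : ∑ T ∈ insert D 𝒟', w ^ T.card ≤ w ^ D.card + ∑ T ∈ 𝒟', w ^ T.card := by
        by_cases hDU : D ∈ 𝒟'
        · rw [Finset.insert_eq_of_mem hDU]
          linarith
        · rw [Finset.sum_insert hDU]
      have hm0 : 0 ≤ cost gm y :=
        Finset.sum_nonneg fun S _ => mul_nonneg (hgm0 S) (by positivity)
      have hstep1 := Psi_step hA hM hm0 (by rw [hcostm]; linarith : cost gm y ≤ cost g y) hapos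
        (by positivity : (0 : ℝ) ≤ 1 / Λ) hc1 hc2
      have hstep2 := Psi_step hA hM hapos.le hastar_le (hapos.trans_le hastar_le)
        (le_refl (0 : ℝ)) (by
          have := hapos.trans_le hastar_le
          positivity) hM.le
      have hwD : w ^ D.card = (cost g y - cost gm y) * (1 / Λ) := by
        rw [hcostm]
        field_simp
        ring
      rw [mul_zero, zero_add] at hstep2
      rw [hwD] at hsum
      linarith

/-- The main implication, for a family all of whose members have at most `L` elements. -/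
theorem isSmall_of_isWeaklySmall_bdd (F : Finset (Finset X)) (k L : ℕ) (hL : L ≤ tower k)
    (hsize : ∀ H ∈ F, H.card ≤ L) {p : ℝ} (hp0 : 0 < p) (hp1 : p ≤ 1)
    (hw : IsWeaklySmall F p) : IsSmall F (p / (32 * ((k : ℝ) + 1))) := by
  set r := p / (32 * ((k : ℝ) + 1)) with hr
  have hC : (0 : ℝ) < 32 * ((k : ℝ) + 1) := by positivity
  have hrpos : 0 < r := div_pos hp0 hC
  have hk1 : (1 : ℝ) ≤ (k : ℝ) + 1 := by
    have : (0 : ℝ) ≤ k := by positivity
    linarith
  have hrle : r ≤ p / 4 := by
    rw [hr]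
    apply div_le_div_of_nonneg_left hp0.le (by norm_num)
    linarith
  obtain ⟨g, ⟨hg, hc⟩, hcost⟩ := id hw
  have hFC : FC g F := ⟨fun S => (hg S).1, hc⟩
  have hy : 0 < p / 4 := by positivity
  have hcostp : ∀ ρ : ℝ, 0 ≤ ρ → ρ ≤ p → cost g ρ ≤ 1 / 2 := by
    intro ρ h0 h1
    refine le_trans ?_ hcost
    unfold cost
    apply Finset.sum_le_sum
    intro S _
    exact mul_le_mul_of_nonneg_left (pow_le_pow_left₀ h0 h1 _) (hg S).1
  obtain ⟨𝒟, h1, h2, h3⟩ := first_level (y := p / 4) (w := p / 4) (A := 1 / 2) (L := L) hy hy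
    (by norm_num) (by norm_num) hsize hFC (hcostp _ (by positivity) (by linarith))
    F.card F (Finset.Subset.refl F) rfl (1 / 2) ⟨g, hFC, hcostp _ hy.le (by linarith)⟩
  have hMval : (1 + p / 4 / (p / 4)) ^ L = (2 : ℝ) ^ L := by
    rw [div_self hy.ne']
    norm_num
  rw [hMval] at h3
  have hLreal : (L : ℝ) ≤ (tower k : ℝ) := by exact_mod_cast hL
  have htow : (1 : ℝ) ≤ (tower k : ℝ) := by exact_mod_cast tower_pos k
  have hPsi : Psi (1 / 2) ((2 : ℝ) ^ L) (1 / 2) ≤ (tower k : ℝ) := by
    unfold Psi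
    have hM1 : (1 : ℝ) ≤ (2 : ℝ) ^ L := one_le_pow₀ (by norm_num)
    split_ifs with hcase
    · have hM2 : (2 : ℝ) ^ L ≤ 1 := by
        rw [le_div_iff₀ (by positivity)] at hcase
        linarith
      nlinarith
    · have hlog : Real.log (1 / 2 * (2 : ℝ) ^ L / (1 / 2)) = (L : ℝ) * Real.log 2 := by
        have : (1 / 2 : ℝ) * (2 : ℝ) ^ L / (1 / 2) = (2 : ℝ) ^ L := by
          field_simp
        rw [this, Real.log_pow]
      rw [hlog]
      have hlog2 := Real.log_two_lt_d9
      have hlog2pos : 0 < Real.log 2 := Real.log_pos (by norm_num)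
      have hL0 : (0 : ℝ) ≤ L := by positivity
      nlinarith
  have hcostr : ∑ D ∈ 𝒟, r ^ D.card ≤ (tower k : ℝ) := by
    refine le_trans ?_ (h3.trans hPsi)
    apply Finset.sum_le_sum
    intro D _
    exact pow_le_pow_left₀ hrpos.le hrle _
  have hgood : ∀ T ∈ 𝒟, Good F (p / 2 + ((0 : ℕ) : ℝ) * (16 * r)) T := by
    intro T hT
    have := h2 T hT
    have he : p / 4 + p / 4 = p / 2 + ((0 : ℕ) : ℝ) * (16 * r) := by
      push_cast
      ring
    rwa [he] at this
  refine levels hrpos (by positivity) hw k 0 𝒟 h1 hgood hcostr ?_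
  have : p / 2 + (((0 : ℕ) : ℝ) + (k : ℝ) + 1) * (16 * r) = p := by
    rw [hr]
    push_cast
    field_simp
    ring
  exact this.le

/-- **Main theorem.** Suppose every member of `F` contains a member of `F` with at most `L` elements,
and `L ≤ tower k`.  Then `q_f(F) ≤ 32 (k + 1) q(F)`; that is, `q_f ≤ 32 (log* ℓ + 1) q`, where `ℓ` is
the largest size of a minimal member of `F`. -/
theorem result {X : Type*} [Fintype X] [DecidableEq X] (F : Finset (Finset X)) (k L : ℕ)
    (hL : L ≤ tower k) (hmin : ∀ H ∈ F, ∃ H₀ ∈ F, H₀ ⊆ H ∧ H₀.card ≤ L) :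
    qFrac F ≤ 32 * ((k : ℝ) + 1) * qInt F := by
  have hC : (0 : ℝ) < 32 * ((k : ℝ) + 1) := by positivity
  have hq0 : 0 ≤ qInt F := Real.sSup_nonneg fun x hx => hx.1.1
  have hbdd : BddAbove {p : ℝ | p ∈ Set.Icc (0 : ℝ) 1 ∧ IsSmall F p} :=
    ⟨1, fun x hx => hx.1.2⟩
  apply Real.sSup_le _ (by positivity)
  rintro x ⟨⟨hx0, hx1⟩, hxw⟩
  rcases hx0.eq_or_lt with rfl | hxpos
  · positivity
  · set F₀ := F.filter fun H => H.card ≤ L with hF₀
    have hw₀ : IsWeaklySmall F₀ x := by
      obtain ⟨g, ⟨hg, hc⟩, hcost⟩ := hxw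
      exact ⟨g, ⟨hg, fun H hH => hc H (Finset.mem_filter.mp hH).1⟩, hcost⟩
    have hs₀ := isSmall_of_isWeaklySmall_bdd F₀ k L hL
      (fun H hH => (Finset.mem_filter.mp hH).2) hxpos hx1 hw₀
    have hs : IsSmall F (x / (32 * ((k : ℝ) + 1))) := by
      obtain ⟨G, hG, hcost⟩ := hs₀
      refine ⟨G, fun H hH => ?_, hcost⟩
      obtain ⟨H₀, hH₀, hsub, hcard⟩ := hmin H hH
      obtain ⟨S, hS, hSH⟩ := hG H₀ (Finset.mem_filter.mpr ⟨hH₀, hcard⟩)
      exact ⟨S, hS, hSH.trans hsub⟩
    have hmem : x / (32 * ((k : ℝ) + 1)) ∈ {p : ℝ | p ∈ Set.Icc (0 : ℝ) 1 ∧ IsSmall F p} := by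
      refine ⟨⟨by positivity, ?_⟩, hs⟩
      rw [div_le_one hC]
      have : (0 : ℝ) ≤ k := by positivity
      linarith
    have hle := le_csSup hbdd hmem
    rw [div_le_iff₀ hC] at hle
    have : qInt F * (32 * ((k : ℝ) + 1)) = 32 * ((k : ℝ) + 1) * qInt F := by ring
    unfold qInt at this ⊢
    linarith

end Vale.Agent.Results.P034.LogStarEll
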